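import Vale.Agent.P046.Defs

/-!
# The lazy chain
-/

namespace Vale.Agent.P046

open Finset

noncomputable section

variable {α : Type} [DecidableEq α]

theorem bl_card_le (B : Finset (Finset α)) (A : Finset α) : (bl B A).card ≤ B.card :=
  card_filter_le _ _

theorem mem_bl {B : Finset (Finset α)} {A T : Finset α} : T ∈ bl B A ↔ T ∈ B ∧ T ⊆ A :=
  mem_filter

/-- The lazy operator as an average. -/
theorem lz_eq (B : Finset (Finset α)) (f : Finset α → ℝ) (A : Finset α) :
    lz B f A = (1 - ((bl B A).card : ℝ) / (B.card : ℝ)) * f A +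
      ∑ T ∈ bl B A, f (A \ T) / (B.card : ℝ) := by
  unfold lz
  rw [sum_sub_distrib, sum_const, nsmul_eq_mul, ← sum_div]
  ring

theorem lz_mono (B : Finset (Finset α)) (f g : Finset α → ℝ) (A : Finset α)
    (h0 : f A ≤ g A) (h1 : ∀ T ∈ bl B A, f (A \ T) ≤ g (A \ T)) : lz B f A ≤ lz B g A := by
  rw [lz_eq, lz_eq]
  have h2 : ((bl B A).card : ℝ) / (B.card : ℝ) ≤ 1 := by
    refine div_le_one_of_le₀ ?_ (by positivity)
    exact_mod_cast bl_card_le B A
  refine add_le_add (mul_le_mul_of_nonneg_left h0 (by linarith)) (sum_le_sum fun T hT => ?_)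
  exact div_le_div_of_nonneg_right (h1 T hT) (by positivity)

/-- [CHAIN] monotone -/
theorem lz_iter_mono (B : Finset (Finset α)) (f g : Finset α → ℝ) (A₀ : Finset α)
    (h : ∀ A, A ⊆ A₀ → f A ≤ g A) (k : ℕ) :
    ((lz B)^[k]) f A₀ ≤ ((lz B)^[k]) g A₀ := by
  have key : ∀ k, ∀ A, A ⊆ A₀ → ((lz B)^[k]) f A ≤ ((lz B)^[k]) g A := by
    intro k
    induction k with
    | zero => exact h
    | succ k ih =>
      intro A hA
      rw [Function.iterate_succ_apply', Function.iterate_succ_apply']
      exact lz_mono B _ _ A (ih A hA) fun T _ => ih _ (sdiff_subset.trans hA)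
  exact key k A₀ (Subset.refl _)

theorem lz_lin (B : Finset (Finset α)) (f g : Finset α → ℝ) (a b : ℝ) :
    lz B (fun A => a * f A + b * g A) = fun A => a * lz B f A + b * lz B g A := by
  ext A
  unfold lz
  have : ∑ T ∈ bl B A, (a * f (A \ T) + b * g (A \ T) - (a * f A + b * g A)) =
      a * ∑ T ∈ bl B A, (f (A \ T) - f A) + b * ∑ T ∈ bl B A, (g (A \ T) - g A) := by
    rw [mul_sum, mul_sum, ← sum_add_distrib]
    exact sum_congr rfl fun T _ => by ring
  rw [this]
  ring

/-- [CHAIN] linear -/
theorem lz_iter_lin (B : Finset (Finset α)) (f g : Finset α → ℝ) (a b : ℝ) (A₀ : Finset α)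
    (k : ℕ) :
    ((lz B)^[k]) (fun A => a * f A + b * g A) A₀ =
      a * ((lz B)^[k]) f A₀ + b * ((lz B)^[k]) g A₀ := by
  have key : ∀ k, ((lz B)^[k]) (fun A => a * f A + b * g A) =
      fun A => a * ((lz B)^[k]) f A + b * ((lz B)^[k]) g A := by
    intro k
    induction k with
    | zero => rfl
    | succ k ih =>
      rw [Function.iterate_succ_apply', Function.iterate_succ_apply', ih, lz_lin,
        Function.iterate_succ_apply']
  exact congrFun (key k) A₀

/-- The process is stationary after enough steps. -/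
theorem run_stable (B : Finset (Finset α)) (hB : Lin3 B) (Φ : Finset α → ℝ) :
    ∀ (m : ℕ) (A : Finset α), A.card ≤ m → ∀ k, A.card ≤ k →
      run B Φ k A = run B Φ A.card A := by
  intro m
  induction m with
  | zero =>
    intro A hA k _
    have h0 : A = ∅ := card_eq_zero.mp (by omega)
    have h1 : ¬ (bl B A).Nonempty := by
      rintro ⟨T, hT⟩
      rw [mem_bl, h0, subset_empty] at hT
      have := hB.card3 T hT.1
      rw [hT.2, card_empty] at this
      omega
    have h2 : ∀ k, run B Φ k A = Φ A := by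
      intro k
      cases k with
      | zero => rfl
      | succ k => rw [run, if_neg h1]
    rw [h2, h2]
  | succ m ih =>
    intro A hA k hk
    by_cases h1 : (bl B A).Nonempty
    · obtain ⟨T, hT⟩ := h1
      have h1 : (bl B A).Nonempty := ⟨T, hT⟩
      have hc : ∀ T ∈ bl B A, (A \ T).card + 3 = A.card := by
        intro T hT
        rw [mem_bl] at hT
        have h3 := hB.card3 T hT.1
        have h4 := card_sdiff_add_card_eq_card hT.2
        omega
      have h3 := hc T hT
      obtain ⟨k', rfl⟩ : ∃ k', k = k' + 1 := ⟨k - 1, by omega⟩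
      obtain ⟨c, hc'⟩ : ∃ c, A.card = c + 1 := ⟨A.card - 1, by omega⟩
      rw [hc', run, run, if_pos h1, if_pos h1]
      congr 1
      refine sum_congr rfl fun S hS => ?_
      have h5 := hc S hS
      rw [ih (A \ S) (by omega) k' (by omega), ih (A \ S) (by omega) c (by omega)]
    · have h2 : ∀ k, run B Φ k A = Φ A := by
        intro k
        cases k with
        | zero => rfl
        | succ k => rw [run, if_neg h1]
      rw [h2, h2]

/-- The recursion for the final expectation. -/
theorem run_card (B : Finset (Finset α)) (hB : Lin3 B) (Φ : Finset α → ℝ) (A : Finset α) :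
    run B Φ A.card A = if (bl B A).Nonempty then
      (∑ T ∈ bl B A, run B Φ (A \ T).card (A \ T)) / ((bl B A).card : ℝ) else Φ A := by
  by_cases h1 : (bl B A).Nonempty
  · obtain ⟨T, hT⟩ := h1
    have h1 : (bl B A).Nonempty := ⟨T, hT⟩
    have hc : ∀ T ∈ bl B A, (A \ T).card + 3 = A.card := by
      intro T hT
      rw [mem_bl] at hT
      have h3 := hB.card3 T hT.1
      have h4 := card_sdiff_add_card_eq_card hT.2
      omega
    have h3 := hc T hT
    obtain ⟨c, hc'⟩ : ∃ c, A.card = c + 1 := ⟨A.card - 1, by omega⟩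
    rw [if_pos h1, hc', run, if_pos h1]
    congr 1
    refine sum_congr rfl fun S hS => ?_
    have h5 := hc S hS
    exact run_stable B hB Φ _ (A \ S) le_rfl c (by omega)
  · rw [if_neg h1]
    cases A.card with
    | zero => rfl
    | succ k => rw [run, if_neg h1]

theorem lz_run (B : Finset (Finset α)) (hB : Lin3 B) (Φ : Finset α → ℝ) :
    lz B (fun A => run B Φ A.card A) = fun A => run B Φ A.card A := by
  ext A
  unfold lz
  rw [sum_sub_distrib, sum_const, nsmul_eq_mul]
  by_cases h1 : (bl B A).Nonempty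
  · have h2 : ((bl B A).card : ℝ) ≠ 0 := by
      exact_mod_cast (card_pos.mpr h1).ne'
    have h3 := run_card B hB Φ A
    rw [if_pos h1, eq_div_iff h2] at h3
    simp only
    rw [← h3]
    ring
  · rw [not_nonempty_iff_eq_empty] at h1
    simp [h1]

theorem run_le (B : Finset (Finset α)) (hB : Lin3 B) (Φ : Finset α → ℝ)
    (hΦ : ∀ A, ∀ T ∈ bl B A, Φ (A \ T) ≤ Φ A) :
    ∀ (m : ℕ) (A : Finset α), A.card ≤ m → run B Φ A.card A ≤ Φ A := by
  intro m
  induction m with
  | zero =>
    intro A hA
    have h0 : A.card = 0 := by omega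
    rw [h0]
    exact le_rfl
  | succ m ih =>
    intro A hA
    rw [run_card B hB]
    split_ifs with h1
    · have h2 : (0 : ℝ) < ((bl B A).card : ℝ) := by
        exact_mod_cast card_pos.mpr h1
      rw [div_le_iff₀ h2, mul_comm, ← nsmul_eq_mul, ← sum_const]
      refine sum_le_sum fun T hT => ?_
      have hc : (A \ T).card + 3 = A.card := by
        have hT' := mem_bl.mp hT
        have h3 := hB.card3 T hT'.1
        have h4 := card_sdiff_add_card_eq_card hT'.2
        omega
      exact (ih (A \ T) (by omega)).trans (hΦ A T hT)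
    · exact le_rfl

/-- [CHAIN] the lazy chain dominates: if Φ (A \ T) ≤ Φ A for all alive blocks, then the
expectation of Φ in the final state is at most the k-th iterate of the lazy operator -/
theorem run_le_lz (B : Finset (Finset α)) (hB : Lin3 B) (Φ : Finset α → ℝ)
    (hΦ : ∀ A, ∀ T ∈ bl B A, Φ (A \ T) ≤ Φ A) (k : ℕ) (A : Finset α) :
    run B Φ A.card A ≤ ((lz B)^[k]) Φ A := by
  have h1 : ((lz B)^[k]) (fun A => run B Φ A.card A) = fun A => run B Φ A.card A :=
    Function.iterate_fixed (lz_run B hB Φ) k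
  have h2 := lz_iter_mono B (fun A => run B Φ A.card A) Φ A
    (fun A' _ => run_le B hB Φ hΦ _ A' le_rfl) k
  rw [h1] at h2
  exact h2

end

end Vale.Agent.P046
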