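import Mathlib

/-!
P046: the random triangle removal process on `K_n` (definitions used in the hand-in).
-/

namespace Vale.Agent.P046

open Finset

noncomputable section

/-- `G` minus the three edges spanned by the vertex set `T` -/
def removeTri {n : ℕ} (G : SimpleGraph (Fin n)) (T : Finset (Fin n)) : SimpleGraph (Fin n) :=
  G.deleteEdges {e | ∀ v ∈ e, v ∈ T}

open Classical in
/-- one step of random triangle removal: a uniformly random triangle of `G` is chosen and its
three edges are deleted; if `G` has no triangle, nothing happens -/
def triStep {n : ℕ} (G : SimpleGraph (Fin n)) : PMF (SimpleGraph (Fin n)) :=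
  if h : (G.cliqueFinset 3).Nonempty then
    (PMF.uniformOfFinset (G.cliqueFinset 3) h).map (removeTri G)
  else PMF.pure G

/-- the law of the graph after `k` steps, started at `G` -/
def triLaw {n : ℕ} (G : SimpleGraph (Fin n)) : ℕ → PMF (SimpleGraph (Fin n))
  | 0 => PMF.pure G
  | k + 1 => (triLaw G k).bind triStep

/-- the law of the final triangle-free graph (the process started at `K_n` has stopped after
at most `n ^ 2` steps) -/
def leave (n : ℕ) : PMF (SimpleGraph (Fin n)) := triLaw (⊤ : SimpleGraph (Fin n)) (n ^ 2)

open Classical in
/-- the expectation of `F_n`, the number of edges of the final graph -/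
def expF (n : ℕ) : ℝ := ∑ G : SimpleGraph (Fin n), (leave n G).toReal * (G.edgeFinset.card : ℝ)

/-- the probability that `F_n` is at least `x` -/
def probF (n : ℕ) (x : ℝ) : ℝ := by
  classical
  exact ∑ G : SimpleGraph (Fin n), if x ≤ (G.edgeFinset.card : ℝ) then (leave n G).toReal else 0

end

end Vale.Agent.P046
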