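import Vale.Agent.P046.Defs
import Vale.Agent.P046.KnDefs
import Vale.Agent.P046.Chain

/-!
# From the process on graphs to the process on edges
-/

namespace Vale.Agent.P046

open Finset

noncomputable section

/-! ### Expectations over finite types -/

/-- The expectation. -/
def Ex {β : Type} [Fintype β] (p : PMF β) (f : β → ℝ) : ℝ := ∑ x, (p x).toReal * f x

theorem Ex_pure {β : Type} [Fintype β] (a : β) (f : β → ℝ) : Ex (PMF.pure a) f = f a := by
  classical
  unfold Ex
  rw [sum_eq_single a]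
  · simp
  · intro b _ hb
    simp [PMF.pure_apply, hb]
  · intro h
    exact absurd (mem_univ a) h

theorem Ex_bind {β γ : Type} [Fintype β] [Fintype γ] (p : PMF β) (q : β → PMF γ) (f : γ → ℝ) :
    Ex (p.bind q) f = Ex p (fun x => Ex (q x) f) := by
  unfold Ex
  have h : ∀ y, ((p.bind q) y).toReal = ∑ x, (p x).toReal * (q x y).toReal := by
    intro y
    rw [PMF.bind_apply, tsum_fintype, ENNReal.toReal_sum fun x _ =>
      ENNReal.mul_ne_top (p.apply_ne_top x) ((q x).apply_ne_top y)]
    exact sum_congr rfl fun x _ => ENNReal.toReal_mul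
  simp_rw [h, sum_mul, mul_sum]
  rw [sum_comm]
  exact sum_congr rfl fun x _ => sum_congr rfl fun y _ => by ring

theorem Ex_map {β γ : Type} [Fintype β] [Fintype γ] (p : PMF β) (g : β → γ) (f : γ → ℝ) :
    Ex (p.map g) f = Ex p (fun x => f (g x)) := by
  rw [← PMF.bind_pure_comp, Ex_bind]
  simp only [Function.comp_apply, Ex_pure]

theorem Ex_uniform {β : Type} [Fintype β] (s : Finset β) (h : s.Nonempty) (f : β → ℝ) :
    Ex (PMF.uniformOfFinset s h) f = (∑ x ∈ s, f x) / (s.card : ℝ) := by
  classical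
  unfold Ex
  have h1 : ∀ x, ((PMF.uniformOfFinset s h) x).toReal * f x =
      if x ∈ s then f x / (s.card : ℝ) else 0 := by
    intro x
    split_ifs with hx
    · rw [PMF.uniformOfFinset_apply_of_mem h hx, ENNReal.toReal_inv, ENNReal.toReal_natCast]
      ring
    · rw [PMF.uniformOfFinset_apply_of_notMem h hx, ENNReal.toReal_zero, zero_mul]
  simp_rw [h1]
  rw [← sum_filter, filter_mem_eq_inter, univ_inter, sum_div]

theorem Ex_mono {β : Type} [Fintype β] (p : PMF β) {f g : β → ℝ} (h : ∀ x, f x ≤ g x) :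
    Ex p f ≤ Ex p g :=
  sum_le_sum fun x _ => mul_le_mul_of_nonneg_left (h x) ENNReal.toReal_nonneg

/-! ### Triangles as sets of edges -/

variable {n : ℕ}

/-- The edges spanned by a set. -/
def tr (T : Finset (Fin n)) : Finset (Sym2 (Fin n)) := T.offDiag.image Sym2.mk.uncurry

theorem mk_mem_tr {T : Finset (Fin n)} {u v : Fin n} :
    s(u, v) ∈ tr T ↔ u ∈ T ∧ v ∈ T ∧ u ≠ v := by
  unfold tr
  rw [mem_image]
  constructor
  · rintro ⟨⟨a, b⟩, h1, h2⟩
    rw [mem_offDiag] at h1
    simp only [Function.uncurry_apply_pair, Sym2.eq_iff] at h2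
    rcases h2 with ⟨rfl, rfl⟩ | ⟨rfl, rfl⟩
    · exact h1
    · exact ⟨h1.2.1, h1.1, h1.2.2.symm⟩
  · intro h
    exact ⟨(u, v), mem_offDiag.mpr h, rfl⟩

theorem card_tr (T : Finset (Fin n)) : (tr T).card = T.card.choose 2 :=
  Sym2.card_image_offDiag T

theorem tr_inter (T T' : Finset (Fin n)) : tr T ∩ tr T' = tr (T ∩ T') := by
  ext e
  induction e with
  | h u v =>
    rw [mem_inter, mk_mem_tr, mk_mem_tr, mk_mem_tr, mem_inter, mem_inter]
    tauto

theorem tr_subset_iff {T T' : Finset (Fin n)} (hT : 2 ≤ T.card) : tr T ⊆ tr T' ↔ T ⊆ T' := by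
  constructor
  · intro h v hv
    obtain ⟨u, hu, huv⟩ := exists_mem_ne (by omega : 1 < T.card) v
    have := h (mk_mem_tr.mpr ⟨hv, hu, huv.symm⟩)
    exact (mk_mem_tr.mp this).1
  · intro h e
    induction e with
    | h u v =>
      rw [mk_mem_tr, mk_mem_tr]
      rintro ⟨h1, h2, h3⟩
      exact ⟨h h1, h h2, h3⟩

theorem tr_inj {T T' : Finset (Fin n)} (hT : 2 ≤ T.card) (hT' : 2 ≤ T'.card)
    (h : tr T = tr T') : T = T' :=
  Subset.antisymm ((tr_subset_iff hT).mp h.subset) ((tr_subset_iff hT').mp h.symm.subset)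

/-- The triangles of the complete graph. -/
def BK (n : ℕ) : Finset (Finset (Sym2 (Fin n))) :=
  ((univ : Finset (Fin n)).powersetCard 3).image tr

theorem mem_BK {S : Finset (Sym2 (Fin n))} : S ∈ BK n ↔ ∃ T : Finset (Fin n), T.card = 3 ∧
    tr T = S := by
  unfold BK
  rw [mem_image]
  simp [mem_powersetCard]

theorem lin3_BK (n : ℕ) : Lin3 (BK n) := by
  refine ⟨?_, ?_⟩
  · intro S hS
    obtain ⟨T, hT, rfl⟩ := mem_BK.mp hS
    rw [card_tr, hT]
    rfl
  · intro S hS S' hS' hne
    obtain ⟨T, hT, rfl⟩ := mem_BK.mp hS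
    obtain ⟨T', hT', rfl⟩ := mem_BK.mp hS'
    rw [tr_inter, card_tr]
    have h1 : (T ∩ T').card ≤ 2 := by
      by_contra hcon
      push Not at hcon
      have h2 : T ∩ T' = T := eq_of_subset_of_card_le inter_subset_left (by omega)
      have h3 : T ∩ T' = T' := eq_of_subset_of_card_le inter_subset_right (by omega)
      exact hne (by rw [← h2, h3])
    calc (T ∩ T').card.choose 2 ≤ Nat.choose 2 2 := Nat.choose_le_choose 2 h1
      _ = 1 := rfl

open Classical in
/-- The edges of a graph. -/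
def EE (G : SimpleGraph (Fin n)) : Finset (Sym2 (Fin n)) := univ.filter (· ∈ G.edgeSet)

theorem mem_EE {G : SimpleGraph (Fin n)} {e : Sym2 (Fin n)} : e ∈ EE G ↔ e ∈ G.edgeSet := by
  simp [EE]

theorem mk_mem_EE {G : SimpleGraph (Fin n)} {u v : Fin n} : s(u, v) ∈ EE G ↔ G.Adj u v := by
  rw [mem_EE, SimpleGraph.mem_edgeSet]

theorem EE_removeTri (G : SimpleGraph (Fin n)) (T : Finset (Fin n)) :
    EE (removeTri G T) = EE G \ tr T := by
  ext e
  induction e with
  | h u v =>
    rw [mem_sdiff, mk_mem_EE, mk_mem_EE, mk_mem_tr]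
    unfold removeTri
    rw [SimpleGraph.deleteEdges_adj]
    constructor
    · rintro ⟨h1, h2⟩
      refine ⟨h1, fun h3 => h2 ?_⟩
      intro w hw
      rcases Sym2.mem_iff.mp hw with rfl | rfl
      · exact h3.1
      · exact h3.2.1
    · rintro ⟨h1, h2⟩
      refine ⟨h1, fun h3 => h2 ⟨?_, ?_, h1.ne⟩⟩
      · exact h3 u (Sym2.mem_mk_left u v)
      · exact h3 v (Sym2.mem_mk_right u v)

open Classical in
theorem bl_EE (G : SimpleGraph (Fin n)) : bl (BK n) (EE G) = (G.cliqueFinset 3).image tr := by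
  ext S
  rw [mem_bl, mem_BK, mem_image]
  constructor
  · rintro ⟨⟨T, hT, rfl⟩, hS⟩
    refine ⟨T, ?_, rfl⟩
    rw [SimpleGraph.mem_cliqueFinset_iff, SimpleGraph.isNClique_iff]
    refine ⟨?_, hT⟩
    intro u hu v hv huv
    exact mk_mem_EE.mp (hS (mk_mem_tr.mpr ⟨hu, hv, huv⟩))
  · rintro ⟨T, hT, rfl⟩
    rw [SimpleGraph.mem_cliqueFinset_iff, SimpleGraph.isNClique_iff] at hT
    refine ⟨⟨T, hT.2, rfl⟩, ?_⟩
    intro e
    induction e with
    | h u v =>
      intro h
      rw [mk_mem_tr] at h
      exact mk_mem_EE.mpr (hT.1 h.1 h.2.1 h.2.2)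

open Classical in
theorem tr_injOn (G : SimpleGraph (Fin n)) :
    Set.InjOn tr (G.cliqueFinset 3 : Set (Finset (Fin n))) := by
  intro T hT T' hT' h
  rw [mem_coe, SimpleGraph.mem_cliqueFinset_iff, SimpleGraph.isNClique_iff] at hT hT'
  exact tr_inj (by omega) (by omega) h

/-! ### The process -/

theorem triLaw_succ (G : SimpleGraph (Fin n)) (k : ℕ) :
    triLaw G (k + 1) = (triStep G).bind fun G' => triLaw G' k := by
  induction k with
  | zero =>
    have h1 : triLaw G (0 + 1) = (PMF.pure G).bind triStep := rfl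
    rw [h1, PMF.pure_bind]
    have h2 : (fun G' : SimpleGraph (Fin n) => triLaw G' 0) = PMF.pure := rfl
    rw [h2, PMF.bind_pure]
  | succ k ih =>
    have h1 : triLaw G (k + 1 + 1) = (triLaw G (k + 1)).bind triStep := rfl
    rw [h1, ih, PMF.bind_bind]
    rfl

open Classical in
/-- One step. -/
theorem Ex_triStep (G : SimpleGraph (Fin n)) (f : SimpleGraph (Fin n) → ℝ) :
    Ex (triStep G) f = if (bl (BK n) (EE G)).Nonempty then
      (∑ T ∈ G.cliqueFinset 3, f (removeTri G T)) / ((bl (BK n) (EE G)).card : ℝ) else f G := by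
  rw [bl_EE, card_image_of_injOn (tr_injOn G)]
  unfold triStep
  by_cases h : (G.cliqueFinset 3).Nonempty
  · rw [dif_pos h, if_pos (h.image tr), Ex_map, Ex_uniform]
  · rw [dif_neg h, if_neg (by rwa [image_nonempty]), Ex_pure]

/-- The expectation after `k` steps. -/
theorem Ex_triLaw (Φ : Finset (Sym2 (Fin n)) → ℝ) (k : ℕ) :
    ∀ G : SimpleGraph (Fin n), Ex (triLaw G k) (fun G' => Φ (EE G')) =
      run (BK n) Φ k (EE G) := by
  classical
  induction k with
  | zero =>
    intro G
    exact Ex_pure G _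
  | succ k ih =>
    intro G
    rw [triLaw_succ, Ex_bind]
    simp_rw [ih]
    rw [Ex_triStep, run]
    by_cases h : (bl (BK n) (EE G)).Nonempty
    · rw [if_pos h, if_pos h]
      congr 1
      conv_rhs => rw [bl_EE]
      rw [sum_image (tr_injOn G)]
      exact sum_congr rfl fun T _ => by rw [EE_removeTri]
    · rw [if_neg h, if_neg h]
      cases k with
      | zero => rfl
      | succ k => rw [run, if_neg h]

/-! ### The complete graph -/

theorem EE_top (n : ℕ) : EE (⊤ : SimpleGraph (Fin n)) = tr univ := by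
  ext e
  induction e with
  | h u v =>
    rw [mk_mem_EE, mk_mem_tr, SimpleGraph.top_adj]
    simp

theorem card_EE_top (n : ℕ) : (EE (⊤ : SimpleGraph (Fin n))).card = n.choose 2 := by
  rw [EE_top, card_tr, card_univ, Fintype.card_fin]

theorem sub_EE_top (n : ℕ) : ∀ S ∈ BK n, S ⊆ EE (⊤ : SimpleGraph (Fin n)) := by
  intro S hS
  obtain ⟨T, hT, rfl⟩ := mem_BK.mp hS
  rw [EE_top]
  exact (tr_subset_iff (by omega)).mpr (subset_univ T)

theorem dg_top (n : ℕ) : ∀ e ∈ EE (⊤ : SimpleGraph (Fin n)),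
    dg (BK n) (EE (⊤ : SimpleGraph (Fin n))) e = n - 2 := by
  intro e
  induction e with
  | h u v =>
    intro he
    have huv : u ≠ v := by
      rw [mk_mem_EE, SimpleGraph.top_adj] at he
      exact he
    have hc : ∀ w ∈ (univ : Finset (Fin n)) \ {u, v}, ({u, v, w} : Finset (Fin n)).card = 3 := by
      intro w hw
      rw [mem_sdiff, mem_insert, mem_singleton, not_or] at hw
      exact card_eq_three.mpr ⟨u, v, w, huv, fun h => hw.2.1 h.symm, fun h => hw.2.2 h.symm, rfl⟩
    have h1 : (bl (BK n) (EE (⊤ : SimpleGraph (Fin n)))).filter (fun T => s(u, v) ∈ T) =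
        ((univ : Finset (Fin n)) \ {u, v}).image fun w => tr {u, v, w} := by
      ext S
      rw [mem_filter, mem_bl, mem_image]
      constructor
      · rintro ⟨⟨h2, _⟩, h3⟩
        obtain ⟨T, hT, rfl⟩ := mem_BK.mp h2
        rw [mk_mem_tr] at h3
        have h4 : ({u, v} : Finset (Fin n)) ⊆ T := by
          intro x hx
          rw [mem_insert, mem_singleton] at hx
          rcases hx with rfl | rfl
          · exact h3.1
          · exact h3.2.1
        have h5 : (T \ {u, v}).card = 1 := by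
          have := card_sdiff_add_card_eq_card h4
          rw [card_pair huv] at this
          omega
        obtain ⟨w, hw⟩ := card_eq_one.mp h5
        have h6 : w ∈ T \ {u, v} := by
          rw [hw]
          exact mem_singleton_self w
        rw [mem_sdiff] at h6
        refine ⟨w, mem_sdiff.mpr ⟨mem_univ w, h6.2⟩, ?_⟩
        congr 1
        refine eq_of_subset_of_card_le ?_ ?_
        · intro x hx
          rw [mem_insert, mem_insert, mem_singleton] at hx
          rcases hx with rfl | rfl | rfl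
          · exact h3.1
          · exact h3.2.1
          · exact h6.1
        · rw [hc w (mem_sdiff.mpr ⟨mem_univ w, h6.2⟩), hT]
      · rintro ⟨w, hw, rfl⟩
        have h3 := hc w hw
        have h4 : tr {u, v, w} ∈ BK n := mem_BK.mpr ⟨_, h3, rfl⟩
        refine ⟨⟨h4, sub_EE_top n _ h4⟩, ?_⟩
        rw [mk_mem_tr]
        simp [huv]
    unfold dg
    rw [h1, card_image_of_injOn]
    · have h2 := card_sdiff_add_card_eq_card (subset_univ ({u, v} : Finset (Fin n)))
      rw [card_pair huv, card_univ, Fintype.card_fin] at h2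
      omega
    · intro w hw w' hw' h
      rw [mem_coe] at hw hw'
      have h2 := tr_inj (by rw [hc w hw]; norm_num) (by rw [hc w' hw']; norm_num) h
      rw [mem_sdiff, mem_insert, mem_singleton, not_or] at hw
      have h3 : w ∈ ({u, v, w'} : Finset (Fin n)) := by
        rw [← h2]
        simp
      rw [mem_insert, mem_insert, mem_singleton] at h3
      rcases h3 with h3 | h3 | h3
      · exact absurd h3 hw.2.1
      · exact absurd h3 hw.2.2
      · exact h3

/-! ### The statements -/

theorem expF_eq_Ex (n : ℕ) : expF n = Ex (leave n) fun G => ((EE G).card : ℝ) := by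
  classical
  unfold expF Ex
  refine sum_congr rfl fun G _ => ?_
  congr 2
  congr 1
  ext e
  rw [SimpleGraph.mem_edgeFinset, mem_EE]

theorem choose_two_le (n : ℕ) : n.choose 2 ≤ n ^ 2 := by
  rw [Nat.choose_two_right, pow_two]
  exact (Nat.div_le_self _ _).trans (Nat.mul_le_mul_left _ (Nat.sub_le n 1))

theorem expF_eq_run (n : ℕ) : expF n =
    run (BK n) (fun A => (A.card : ℝ)) (EE (⊤ : SimpleGraph (Fin n))).card
      (EE (⊤ : SimpleGraph (Fin n))) := by
  rw [expF_eq_Ex]
  unfold leave
  rw [Ex_triLaw (fun A => (A.card : ℝ))]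
  refine run_stable (BK n) (lin3_BK n) _ _ _ le_rfl _ ?_
  rw [card_EE_top]
  exact choose_two_le n

theorem expF_le_sq (n : ℕ) : expF n ≤ (n : ℝ) ^ 2 := by
  rw [expF_eq_run]
  refine (run_le (BK n) (lin3_BK n) (fun A => (A.card : ℝ)) ?_ _ _ le_rfl).trans ?_
  · intro A T _
    exact_mod_cast card_le_card sdiff_subset
  · rw [card_EE_top]
    exact_mod_cast choose_two_le n

/-- [KN] reduction of the process on graphs to the point/block form (points = edges of `K_n`,
blocks = the edge sets of triangles of `K_n`); uses main_regular with D = n - 2 -/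
theorem expF_le (hmain : ∃ C : ℝ, 0 < C ∧ ∀ (α : Type) [DecidableEq α] (B : Finset (Finset α))
    (A : Finset α) (D : ℕ), 2 ≤ D → Lin3 B → (∀ T ∈ B, T ⊆ A) → (∀ e ∈ A, dg B A e = D) →
    run B (fun A => (A.card : ℝ)) A.card A ≤
      C * (A.card : ℝ) * Real.sqrt (Real.log D / D)) :
    ∃ C : ℝ, 0 < C ∧ ∀ n : ℕ, 2 ≤ n →
      expF n ≤ C * (n : ℝ) ^ (3 / 2 : ℝ) * Real.sqrt (Real.log n) := by
  obtain ⟨C, hC, hmain⟩ := hmain
  refine ⟨C + 4, by positivity, fun n hn => ?_⟩
  have hn2 : (2 : ℝ) ≤ n := by exact_mod_cast hn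
  have hn0 : (0 : ℝ) < n := by linarith
  have hlog : Real.log 2 ≤ Real.log n := Real.log_le_log (by norm_num) hn2
  have hlog2 := Real.log_two_gt_d9
  have hlogn : 0 < Real.log n := by linarith
  have e32 : (n : ℝ) ^ (3 / 2 : ℝ) = n * Real.sqrt n := by
    rw [Real.sqrt_eq_rpow, ← Real.rpow_one_add' hn0.le (by norm_num)]
    norm_num
  rw [e32]
  rcases Nat.lt_or_ge n 4 with hlt | hge
  · refine (expF_le_sq n).trans ?_
    have hn3 : (n : ℝ) ≤ 3 := by
      have : n ≤ 3 := by omega
      exact_mod_cast this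
    have h1 : (1 : ℝ) ≤ Real.sqrt n := Real.one_le_sqrt.mpr (by linarith)
    have h2 : (3 : ℝ) / 4 ≤ Real.sqrt (Real.log n) := by
      refine Real.le_sqrt_of_sq_le ?_
      norm_num
      linarith
    have h3 : (n : ℝ) * Real.sqrt n * (3 / 4) ≤ n * Real.sqrt n * Real.sqrt (Real.log n) :=
      mul_le_mul_of_nonneg_left h2 (by positivity)
    have h4 : (n : ℝ) ≤ n * Real.sqrt n := le_mul_of_one_le_right hn0.le h1
    have h5 : (C + 4) * (n * Real.sqrt n) * Real.sqrt (Real.log n) =
        (C + 4) * (n * Real.sqrt n * Real.sqrt (Real.log n)) := by ring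
    rw [h5]
    nlinarith
  · have h1 := hmain (Sym2 (Fin n)) (BK n) (EE (⊤ : SimpleGraph (Fin n))) (n - 2) (by omega)
      (lin3_BK n) (sub_EE_top n) (dg_top n)
    rw [← expF_eq_run, card_EE_top] at h1
    refine h1.trans ?_
    have hD : (n : ℝ) / 2 ≤ ((n - 2 : ℕ) : ℝ) := by
      rw [Nat.cast_sub (by omega)]
      have : (4 : ℝ) ≤ n := by exact_mod_cast hge
      push_cast
      linarith
    have hD' : ((n - 2 : ℕ) : ℝ) ≤ n := by exact_mod_cast Nat.sub_le n 2
    have hD0 : (0 : ℝ) < ((n - 2 : ℕ) : ℝ) := by linarith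
    have hch : ((n.choose 2 : ℕ) : ℝ) ≤ n ^ 2 / 2 := by
      rw [Nat.cast_choose_two]
      nlinarith
    have h2 : Real.log ((n - 2 : ℕ) : ℝ) / ((n - 2 : ℕ) : ℝ) ≤ 2 * (Real.log n / n) := by
      have h3 : Real.log ((n - 2 : ℕ) : ℝ) ≤ Real.log n := Real.log_le_log hD0 hD'
      calc Real.log ((n - 2 : ℕ) : ℝ) / ((n - 2 : ℕ) : ℝ) ≤
            Real.log n / ((n - 2 : ℕ) : ℝ) := div_le_div_of_nonneg_right h3 hD0.le
        _ ≤ Real.log n / (n / 2) :=
            div_le_div_of_nonneg_left hlogn.le (by positivity) hD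
        _ = 2 * (Real.log n / n) := by
            field_simp
    have h4 : Real.sqrt (Real.log ((n - 2 : ℕ) : ℝ) / ((n - 2 : ℕ) : ℝ)) ≤
        2 * (Real.sqrt (Real.log n) / Real.sqrt n) := by
      calc Real.sqrt (Real.log ((n - 2 : ℕ) : ℝ) / ((n - 2 : ℕ) : ℝ))
          ≤ Real.sqrt (2 ^ 2 * (Real.log n / n)) := by
            refine Real.sqrt_le_sqrt (h2.trans ?_)
            have : 0 ≤ Real.log n / n := by positivity
            linarith
        _ = 2 * (Real.sqrt (Real.log n) / Real.sqrt n) := by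
            rw [Real.sqrt_mul (by norm_num), Real.sqrt_sq (by norm_num), Real.sqrt_div hlogn.le]
    have hs : Real.sqrt n * Real.sqrt n = n := Real.mul_self_sqrt hn0.le
    have hs0 : 0 < Real.sqrt n := Real.sqrt_pos.mpr hn0
    calc C * ((n.choose 2 : ℕ) : ℝ) *
          Real.sqrt (Real.log ((n - 2 : ℕ) : ℝ) / ((n - 2 : ℕ) : ℝ))
        ≤ C * (n ^ 2 / 2) * (2 * (Real.sqrt (Real.log n) / Real.sqrt n)) := by
          refine mul_le_mul (mul_le_mul_of_nonneg_left hch hC.le) h4 (Real.sqrt_nonneg _)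
            (by positivity)
      _ = C * (n * Real.sqrt n) * Real.sqrt (Real.log n) := by
          field_simp
          rw [pow_two, hs]
      _ ≤ (C + 4) * (n * Real.sqrt n) * Real.sqrt (Real.log n) := by
          have : 0 ≤ (n * Real.sqrt n) * Real.sqrt (Real.log n) := by positivity
          nlinarith

/-- Each effective step removes an edge. -/
theorem triLaw_free (G₀ : SimpleGraph (Fin n)) (k : ℕ) :
    ∀ G, triLaw G₀ k G ≠ 0 → G.CliqueFree 3 ∨ (EE G).card + k ≤ (EE G₀).card := by
  classical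
  induction k with
  | zero =>
    intro G hG
    right
    have h1 : triLaw G₀ 0 = PMF.pure G₀ := rfl
    rw [h1, PMF.pure_apply] at hG
    by_cases h : G = G₀
    · rw [h]
      omega
    · rw [if_neg h] at hG
      exact absurd rfl hG
  | succ k ih =>
    intro G hG
    have h1 : triLaw G₀ (k + 1) = (triLaw G₀ k).bind triStep := rfl
    rw [h1, ← PMF.mem_support_iff, PMF.mem_support_bind_iff] at hG
    obtain ⟨G', hG', hG⟩ := hG
    rw [PMF.mem_support_iff] at hG'
    have h2 := ih G' hG'
    unfold triStep at hG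
    by_cases h : (G'.cliqueFinset 3).Nonempty
    · rw [dif_pos h, PMF.mem_support_map_iff] at hG
      obtain ⟨T, hT, rfl⟩ := hG
      rw [PMF.mem_support_uniformOfFinset_iff] at hT
      right
      rcases h2 with h2 | h2
      · rw [← SimpleGraph.cliqueFinset_eq_empty_iff] at h2
        rw [h2] at h
        exact absurd h not_nonempty_empty
      · rw [EE_removeTri]
        rw [SimpleGraph.mem_cliqueFinset_iff, SimpleGraph.isNClique_iff] at hT
        have h3 : tr T ⊆ EE G' := by
          intro e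
          induction e with
          | h u v =>
            intro h
            rw [mk_mem_tr] at h
            exact mk_mem_EE.mpr (hT.1 h.1 h.2.1 h.2.2)
        have h4 := card_sdiff_add_card_eq_card h3
        have h5 : (tr T).card = 3 := by
          rw [card_tr, hT.2]
          rfl
        omega
    · rw [dif_neg h] at hG
      rw [PMF.mem_support_pure_iff] at hG
      subst hG
      left
      rw [not_nonempty_iff_eq_empty, SimpleGraph.cliqueFinset_eq_empty_iff] at h
      exact h

/-- [KN] sanity: the final graph has no triangle -/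
theorem leave_free (n : ℕ) (G : SimpleGraph (Fin n)) (h : leave n G ≠ 0) : G.CliqueFree 3 := by
  rcases Nat.eq_zero_or_pos n with hn | hn
  · refine SimpleGraph.cliqueFree_of_card_lt ?_
    rw [Fintype.card_fin]
    omega
  · rcases triLaw_free _ _ G h with h1 | h1
    · exact h1
    · rw [card_EE_top, Nat.choose_two_right] at h1
      exfalso
      have h2 : n * (n - 1) / 2 ≤ n * (n - 1) := Nat.div_le_self _ _
      have h3 : n * (n - 1) < n ^ 2 := by
        rw [pow_two]
        exact Nat.mul_lt_mul_of_pos_left (by omega) hn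
      omega

/-- [KN] Markov -/
theorem probF_le (n : ℕ) (x : ℝ) (hx : 0 < x) : probF n x ≤ expF n / x := by
  classical
  unfold probF expF
  rw [sum_div]
  refine sum_le_sum fun G _ => ?_
  split_ifs with h
  · rw [le_div_iff₀ hx]
    exact mul_le_mul_of_nonneg_left h ENNReal.toReal_nonneg
  · exact div_nonneg (mul_nonneg ENNReal.toReal_nonneg (by positivity)) hx.le

end

end Vale.Agent.P046
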