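import Vale.Agent.P046.Defs

/-!
P046: the one-step drift of the number of alive points and of the potential.
-/

namespace Vale.Agent.P046

open Finset

noncomputable section

variable {α : Type} [DecidableEq α]

namespace Drift

theorem mem_bl {B : Finset (Finset α)} {A T : Finset α} : T ∈ bl B A ↔ T ∈ B ∧ T ⊆ A := by
  simp [bl]

/-- sum over blocks and their points = sum over points weighted by the number of blocks -/
theorem sum_blocks (B : Finset (Finset α)) (A : Finset α) (g : α → ℝ) :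
    ∑ T ∈ bl B A, ∑ e ∈ T, g e = ∑ e ∈ A, (dg B A e : ℝ) * g e := by
  have h1 : ∀ T ∈ bl B A, ∑ e ∈ T, g e = ∑ e ∈ A, if e ∈ T then g e else 0 := by
    intro T hT
    rw [← Finset.sum_filter]
    congr 1
    ext e
    simp only [mem_filter]
    exact ⟨fun h => ⟨(mem_bl.1 hT).2 h, h⟩, fun h => h.2⟩
  rw [Finset.sum_congr rfl h1, Finset.sum_comm]
  refine Finset.sum_congr rfl fun e _ => ?_
  rw [← Finset.sum_filter, Finset.sum_const, nsmul_eq_mul]
  rfl

theorem dg_pos {B : Finset (Finset α)} {A T : Finset α} {e : α} (hT : T ∈ bl B A) (he : e ∈ T) :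
    1 ≤ dg B A e := by
  unfold dg
  exact Finset.card_pos.2 ⟨T, by simp [hT, he]⟩

/-- number of alive blocks at `e` destroyed by `T` -/
def kk (B : Finset (Finset α)) (A T : Finset α) (e : α) : ℕ :=
  ((bl B A).filter (fun T' => e ∈ T' ∧ ¬ Disjoint T' T)).card

theorem bl_sdiff (B : Finset (Finset α)) (A T : Finset α) :
    bl B (A \ T) = (bl B A).filter (fun T' => Disjoint T' T) := by
  ext T'
  simp only [bl, mem_filter, Finset.subset_sdiff]
  tauto

theorem dg_sdiff (B : Finset (Finset α)) (A T : Finset α) (e : α) :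
    dg B A e = dg B (A \ T) e + kk B A T e := by
  unfold dg kk
  rw [bl_sdiff, Finset.filter_filter]
  rw [← Finset.card_union_of_disjoint]
  · congr 1
    ext T'
    simp only [mem_filter, mem_union]
    tauto
  · rw [Finset.disjoint_left]
    intro T' h1 h2
    simp only [mem_filter] at h1 h2
    exact h2.2.2 h1.2.1

theorem eq_of_two {B : Finset (Finset α)} (hB : Lin3 B) {T T' : Finset α} (hT : T ∈ B)
    (hT' : T' ∈ B) {e f : α} (hef : e ≠ f) (h1 : e ∈ T) (h2 : f ∈ T) (h3 : e ∈ T')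
    (h4 : f ∈ T') : T = T' := by
  by_contra hne
  have := hB.lin T hT T' hT' hne
  have h5 : ({e, f} : Finset α) ⊆ T ∩ T' := by
    intro x hx
    simp only [mem_insert, mem_singleton] at hx
    rcases hx with rfl | rfl
    · exact mem_inter.2 ⟨h1, h3⟩
    · exact mem_inter.2 ⟨h2, h4⟩
  have h6 := Finset.card_le_card h5
  rw [Finset.card_pair hef] at h6
  omega

theorem kk_le (B : Finset (Finset α)) (hB : Lin3 B) (A T : Finset α) (hT : T ∈ bl B A) (e : α)
    (he : e ∉ T) : kk B A T e ≤ 3 := by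
  have hT3 := hB.card3 T (mem_bl.1 hT).1
  rw [← hT3]
  unfold kk
  have hchoose : ∀ T' ∈ (bl B A).filter (fun T' => e ∈ T' ∧ ¬ Disjoint T' T),
      ∃ f, f ∈ T ∧ f ∈ T' := by
    intro T' hT'
    simp only [mem_filter] at hT'
    obtain ⟨f, hf1, hf2⟩ := Finset.not_disjoint_iff.1 hT'.2.2
    exact ⟨f, hf2, hf1⟩
  have : Nonempty α := ⟨e⟩
  choose! F hF using hchoose
  refine Finset.card_le_card_of_injOn F (fun T' hT' => (hF T' hT').1) ?_
  intro T₁ h1 T₂ h2 h12
  have h1' := hF T₁ h1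
  have h2' := hF T₂ h2
  simp only [coe_filter, Set.mem_ofPred_eq] at h1 h2
  refine eq_of_two hB (mem_bl.1 h1.1).1 (mem_bl.1 h2.1).1 (e := e) (f := F T₁) ?_ h1.2.1 h1'.2
    h2.2.1 (h12 ▸ h2'.2)
  rintro rfl
  exact he h1'.1

/-- for a block `T'` and a point `e` of it: the number of alive blocks which meet `T'` and do not
contain `e` -/
theorem count_meet (B : Finset (Finset α)) (hB : Lin3 B) (A T' : Finset α) (hT' : T' ∈ bl B A)
    (e : α) (he : e ∈ T') :
    (((bl B A).filter (fun T => e ∉ T ∧ ¬ Disjoint T' T)).card : ℝ) =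
      ∑ f ∈ T'.erase e, ((dg B A f : ℝ) - 1) := by
  have hset : (bl B A).filter (fun T => e ∉ T ∧ ¬ Disjoint T' T) =
      (T'.erase e).biUnion (fun f => ((bl B A).filter (fun T => f ∈ T)).erase T') := by
    ext T
    simp only [mem_filter, mem_biUnion, mem_erase]
    constructor
    · rintro ⟨hT, heT, hd⟩
      obtain ⟨f, hf1, hf2⟩ := Finset.not_disjoint_iff.1 hd
      refine ⟨f, ⟨?_, hf1⟩, ?_, hT, hf2⟩
      · rintro rfl
        exact heT hf2
      · rintro rfl
        exact heT he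
    · rintro ⟨f, ⟨hfe, hf1⟩, hne, hT, hf2⟩
      refine ⟨hT, ?_, ?_⟩
      · intro heT
        exact hne (eq_of_two hB (mem_bl.1 hT).1 (mem_bl.1 hT').1 hfe hf2 heT hf1 he)
      · exact Finset.not_disjoint_iff.2 ⟨f, hf1, hf2⟩
  rw [hset, Finset.card_biUnion]
  · push_cast
    refine Finset.sum_congr rfl fun f hf => ?_
    have hmem : T' ∈ (bl B A).filter (fun T => f ∈ T) := by
      simp only [mem_filter]
      exact ⟨hT', (mem_erase.1 hf).2⟩
    rw [Finset.card_erase_of_mem hmem]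
    have h1 : 1 ≤ ((bl B A).filter (fun T => f ∈ T)).card := Finset.card_pos.2 ⟨T', hmem⟩
    rw [Nat.cast_sub h1]
    simp [dg]
  · intro f hf g hg hfg
    simp only [Function.onFun]
    rw [Finset.disjoint_left]
    intro T h1 h2
    simp only [mem_erase, mem_filter] at h1 h2
    simp only [coe_erase, Set.mem_sdiff, mem_coe, Set.mem_singleton_iff] at hf hg
    exact h1.1 (eq_of_two hB (mem_bl.1 h1.2.1).1 (mem_bl.1 hT').1 hfg h1.2.2 h2.2.2 hf.1 hg.1)

/-- the double counting identity -/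
theorem double_count (B : Finset (Finset α)) (hB : Lin3 B) (A : Finset α) (g : α → ℝ) :
    ∑ T ∈ bl B A, ∑ e ∈ A \ T, (kk B A T e : ℝ) * g e =
      ∑ T' ∈ bl B A, ∑ e ∈ T', g e * ∑ f ∈ T'.erase e, ((dg B A f : ℝ) - 1) := by
  have h1 : ∀ T ∈ bl B A, ∑ e ∈ A \ T, (kk B A T e : ℝ) * g e =
      ∑ T' ∈ bl B A, ∑ e ∈ T', if e ∉ T ∧ ¬ Disjoint T' T then g e else 0 := by
    intro T _
    have h2 : ∀ e ∈ A \ T, (kk B A T e : ℝ) * g e =
        ∑ T' ∈ bl B A, if e ∈ T' ∧ ¬ Disjoint T' T then g e else 0 := by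
      intro e _
      rw [← Finset.sum_filter, Finset.sum_const, nsmul_eq_mul]
      rfl
    rw [Finset.sum_congr rfl h2, Finset.sum_comm]
    refine Finset.sum_congr rfl fun T' hT' => ?_
    rw [← Finset.sum_filter, ← Finset.sum_filter]
    congr 1
    ext e
    simp only [mem_filter, mem_sdiff]
    constructor
    · rintro ⟨⟨_, h3⟩, h4, h5⟩
      exact ⟨h4, h3, h5⟩
    · rintro ⟨h4, h3, h5⟩
      exact ⟨⟨(mem_bl.1 hT').2 h4, h3⟩, h4, h5⟩
  rw [Finset.sum_congr rfl h1, Finset.sum_comm]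
  refine Finset.sum_congr rfl fun T' hT' => ?_
  rw [Finset.sum_comm]
  refine Finset.sum_congr rfl fun e he => ?_
  rw [← count_meet B hB A T' hT' e he, ← Finset.sum_filter, Finset.sum_const, nsmul_eq_mul,
    mul_comm]

end Drift

open Drift

/-- [DRIFT] expected change of the number of alive points -/
theorem drift_card (B : Finset (Finset α)) (_hB : Lin3 B) (A : Finset α) :
    ∑ T ∈ bl B A, (((A \ T).card : ℝ) - (A.card : ℝ)) = -∑ e ∈ A, (dg B A e : ℝ) := by
  have h1 : ∀ T ∈ bl B A, (((A \ T).card : ℝ) - (A.card : ℝ)) = -∑ e ∈ T, (1 : ℝ) := by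
    intro T hT
    have hs := (mem_bl.1 hT).2
    rw [Finset.card_sdiff_of_subset hs, Nat.cast_sub (Finset.card_le_card hs)]
    simp
  rw [Finset.sum_congr rfl h1, Finset.sum_neg_distrib, sum_blocks]
  simp

/-- [DRIFT] expected change of the potential -/
theorem drift_pot (B : Finset (Finset α)) (hB : Lin3 B) (ψ ψ' : ℝ → ℝ) (c K : ℝ)
    (h : Pot ψ ψ' c K) (ρ : ℝ) (hρ : 0 < ρ) (A : Finset α) :
    ∑ T ∈ bl B A, (Pt B ψ ρ (A \ T) - Pt B ψ ρ A) ≤
      ρ * Pt B ψ ρ A +
        (2 - 2 * ρ) * ∑ e ∈ A, ((dg B A e : ℝ) / ρ) * ψ' ((dg B A e : ℝ) / ρ) +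
        6 * K * ∑ e ∈ A, ((dg B A e : ℝ) / ρ) ^ 2 := by
  set y : α → ℝ := fun e => (dg B A e : ℝ) / ρ with hy
  have hKp := h.Kpos
  have hy0 : ∀ e, 0 ≤ y e := fun e => by positivity
  have hdy : ∀ e, (dg B A e : ℝ) = ρ * y e := fun e => by
    simp only [hy]; field_simp
  set G : α → ℝ := fun e => -(ψ' (y e)) / ρ + 3 * K / ρ ^ 2 with hG
  have hψ0 : ∀ x, 0 ≤ x → 0 ≤ ψ x := fun x hx =>
    le_trans (mul_nonneg h.cpos.le (sq_nonneg _)) (h.lower x hx)
  -- one block
  have h1 : ∀ T ∈ bl B A, Pt B ψ ρ (A \ T) - Pt B ψ ρ A ≤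
      -∑ e ∈ T, ψ (y e) + ∑ e ∈ A \ T, (kk B A T e : ℝ) * G e := by
    intro T hT
    have hs := (mem_bl.1 hT).2
    have e1 : Pt B ψ ρ A = ∑ e ∈ A \ T, ψ (y e) + ∑ e ∈ T, ψ (y e) := by
      unfold Pt
      rw [Finset.sum_sdiff hs]
    have e2 : Pt B ψ ρ (A \ T) ≤ ∑ e ∈ A \ T, (ψ (y e) + (kk B A T e : ℝ) * G e) := by
      unfold Pt
      refine Finset.sum_le_sum fun e he => ?_
      have hd := dg_sdiff B A T e
      have hk := kk_le B hB A T hT e (mem_sdiff.1 he).2
      have hk' : (kk B A T e : ℝ) ≤ 3 := by exact_mod_cast hk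
      have hk0 : (0 : ℝ) ≤ (kk B A T e : ℝ) := by positivity
      have hd' : (dg B (A \ T) e : ℝ) = (dg B A e : ℝ) - (kk B A T e : ℝ) := by
        rw [hd]; push_cast; ring
      have ht := h.taylor (y e) ((dg B (A \ T) e : ℝ) / ρ) (hy0 e) (by positivity)
      have e3 : (dg B (A \ T) e : ℝ) / ρ - y e = -((kk B A T e : ℝ) / ρ) := by
        simp only [hy]; rw [hd']; ring
      rw [e3] at ht
      have e4 : K * (-((kk B A T e : ℝ) / ρ)) ^ 2 ≤ (kk B A T e : ℝ) * (3 * K / ρ ^ 2) := by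
        have e5 : K * (-((kk B A T e : ℝ) / ρ)) ^ 2 =
            (kk B A T e : ℝ) * (kk B A T e : ℝ) * (K / ρ ^ 2) := by
          field_simp
        have e6 : (kk B A T e : ℝ) * (3 * K / ρ ^ 2) = (kk B A T e : ℝ) * 3 * (K / ρ ^ 2) := by
          ring
        rw [e5, e6]
        have : 0 ≤ K / ρ ^ 2 := by positivity
        nlinarith [mul_le_mul_of_nonneg_left hk' hk0]
      have e7 : (kk B A T e : ℝ) * G e = -((kk B A T e : ℝ) / ρ) * ψ' (y e) +
          (kk B A T e : ℝ) * (3 * K / ρ ^ 2) := by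
        simp only [hG]; ring
      rw [e7]
      linarith
    rw [Finset.sum_add_distrib] at e2
    linarith
  refine le_trans (Finset.sum_le_sum h1) ?_
  rw [Finset.sum_add_distrib, double_count B hB A G, ← Finset.sum_add_distrib]
  -- one block again
  have h2 : ∀ T ∈ bl B A, -∑ e ∈ T, ψ (y e) +
      ∑ e ∈ T, G e * ∑ f ∈ T.erase e, ((dg B A f : ℝ) - 1) ≤
      ∑ e ∈ T, (ψ (y e) / y e + (-2 + 2 / ρ) * ψ' (y e) + 6 * K / ρ * y e) := by
    intro T hT
    have hTB := (mem_bl.1 hT).1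
    obtain ⟨a, b, c', hab, hac, hbc, rfl⟩ := Finset.card_eq_three.1 (hB.card3 T hTB)
    have ea : ({a, b, c'} : Finset α).erase a = {b, c'} := by
      ext x; simp only [mem_erase, mem_insert, mem_singleton]
      constructor
      · rintro ⟨h1, h2⟩; tauto
      · rintro (rfl | rfl)
        · exact ⟨hab.symm, by simp⟩
        · exact ⟨hac.symm, by simp⟩
    have eb : ({a, b, c'} : Finset α).erase b = {a, c'} := by
      ext x; simp only [mem_erase, mem_insert, mem_singleton]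
      constructor
      · rintro ⟨h1, h2⟩; tauto
      · rintro (rfl | rfl)
        · exact ⟨hab, by simp⟩
        · exact ⟨hbc.symm, by simp⟩
    have ec : ({a, b, c'} : Finset α).erase c' = {a, b} := by
      ext x; simp only [mem_erase, mem_insert, mem_singleton]
      constructor
      · rintro ⟨h1, h2⟩; tauto
      · rintro (rfl | rfl)
        · exact ⟨hac, by simp⟩
        · exact ⟨hbc, by simp⟩
    have s3 : ∀ F : α → ℝ, ∑ e ∈ ({a, b, c'} : Finset α), F e = F a + F b + F c' := by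
      intro F
      rw [Finset.sum_insert (by simp [hab, hac]), Finset.sum_insert (by simp [hbc]),
        Finset.sum_singleton]
      ring
    rw [s3, s3, s3, ea, eb, ec, Finset.sum_pair hbc, Finset.sum_pair hac, Finset.sum_pair hab,
      hdy a, hdy b, hdy c']
    have pa : 0 < y a := by
      have := dg_pos hT (e := a) (by simp)
      have h3 : (1 : ℝ) ≤ (dg B A a : ℝ) := by exact_mod_cast this
      simp only [hy]; positivity
    have pb : 0 < y b := by
      have := dg_pos hT (e := b) (by simp)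
      have h3 : (1 : ℝ) ≤ (dg B A b : ℝ) := by exact_mod_cast this
      simp only [hy]; positivity
    have pc : 0 < y c' := by
      have := dg_pos hT (e := c') (by simp)
      have h3 : (1 : ℝ) ≤ (dg B A c' : ℝ) := by exact_mod_cast this
      simp only [hy]; positivity
    have ht := h.tri (y a) (y b) (y c') pa pb pc
    have key : ∀ p q r s : ℝ, (-q / ρ + 3 * K / ρ ^ 2) * (ρ * r - 1 + (ρ * s - 1)) =
        -q * (r + s) + 2 / ρ * q + 3 * K / ρ * (r + s) - 6 * K / ρ ^ 2 := by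
      intro p q r s
      field_simp
      ring
    simp only [hG]
    rw [key 0 (ψ' (y a)) (y b) (y c'), key 0 (ψ' (y b)) (y a) (y c'),
      key 0 (ψ' (y c')) (y a) (y b)]
    have hpos : 0 ≤ 6 * K / ρ ^ 2 := by positivity
    have e8 : 3 * K / ρ * (y b + y c') + 3 * K / ρ * (y a + y c') + 3 * K / ρ * (y a + y b) =
        6 * K / ρ * y a + 6 * K / ρ * y b + 6 * K / ρ * y c' := by ring
    nlinarith [ht, hpos, e8]
  refine le_trans (Finset.sum_le_sum h2) ?_
  rw [sum_blocks]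
  have h3 : ∀ e ∈ A, (dg B A e : ℝ) * (ψ (y e) / y e + (-2 + 2 / ρ) * ψ' (y e) +
      6 * K / ρ * y e) ≤ ρ * ψ (y e) + (2 - 2 * ρ) * (y e * ψ' (y e)) + 6 * K * (y e) ^ 2 := by
    intro e _
    rw [hdy e]
    have e1 : ρ * y e * (ψ (y e) / y e + (-2 + 2 / ρ) * ψ' (y e) + 6 * K / ρ * y e) =
        ρ * (y e * (ψ (y e) / y e)) + (2 - 2 * ρ) * (y e * ψ' (y e)) + 6 * K * (y e) ^ 2 := by
      generalize ψ (y e) / y e = q1
      generalize ψ' (y e) = q2
      generalize y e = q3
      field_simp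
      ring
    rw [e1]
    have e2 : y e * (ψ (y e) / y e) ≤ ψ (y e) := by
      rcases eq_or_ne (y e) 0 with h0 | h0
      · rw [h0]; simpa using hψ0 0 le_rfl
      · rw [mul_div_cancel₀ _ h0]
    nlinarith [mul_le_mul_of_nonneg_left e2 hρ.le]
  refine le_trans (Finset.sum_le_sum h3) ?_
  rw [Finset.sum_add_distrib, Finset.sum_add_distrib, ← Finset.mul_sum, ← Finset.mul_sum,
    ← Finset.mul_sum]
  exact le_of_eq rfl

end

end Vale.Agent.P046
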