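import Mathlib

/-!
P046, the three-variable inequality, part A: the analytic core.
-/

namespace Vale.Agent.P046.Psi

noncomputable section

/-- derivative of `x ^ 2 / (1 + x)` -/
def PP (x : ℝ) : ℝ := 1 - 1 / (1 + x) ^ 2

theorem key (x V p Hs : ℝ) (hx : 0 ≤ x) (hV : 0 ≤ V) (hp1 : p ≤ 13 / 32)
    (hH : 0 ≤ Hs)
    (h1 : 0 ≤ 1 - (1 - p) * (1 + V) ^ 2 →
      (1 - (1 - p) * (1 + V) ^ 2) ^ 2 ≤ 8 * (1 + V) ^ 3 * (1 - p) * Hs)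
    (h2 : 1 - (1 - p) * (1 + V) ^ 2 ≤ 0 →
      (1 - (1 - p) * (1 + V) ^ 2) ^ 2 ≤ 8 * (1 + V) * Hs) :
    0 ≤ Hs + (x - V) * (PP x - p) := by
  unfold PP
  obtain ⟨X, hX⟩ : ∃ X, X = 1 + x := ⟨_, rfl⟩
  obtain ⟨W, hW⟩ : ∃ W, W = 1 + V := ⟨_, rfl⟩
  obtain ⟨t, ht⟩ : ∃ t, t = 1 - p := ⟨_, rfl⟩
  have e1 : x - V = X - W := by rw [hX, hW]; ring
  have e2 : 1 - 1 / (1 + x) ^ 2 - p = t - 1 / X ^ 2 := by rw [hX, ht]; ring
  rw [e1, e2]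
  rw [← hW, ← ht] at h1 h2
  have hX1 : 1 ≤ X := by linarith
  have hW1 : 1 ≤ W := by linarith
  have ht0 : 19 / 32 ≤ t := by linarith
  have hX2 : 0 < X ^ 2 := by positivity
  have e3 : Hs + (X - W) * (t - 1 / X ^ 2) = (Hs * X ^ 2 + (X - W) * (t * X ^ 2 - 1)) / X ^ 2 := by
    field_simp
  rw [e3]
  apply div_nonneg _ hX2.le
  rcases le_total 0 (1 - t * W ^ 2) with hd | hd
  · have h := h1 hd
    rcases le_total X W with hXW | hXW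
    · have : t * X ^ 2 - 1 ≤ 0 := by
        have : X ^ 2 ≤ W ^ 2 := by nlinarith
        nlinarith
      have h3 : 0 ≤ (X - W) * (t * X ^ 2 - 1) := by nlinarith
      have h4 : 0 ≤ Hs * X ^ 2 := by positivity
      linarith
    · obtain ⟨Y, hY⟩ : ∃ Y, Y = X - W := ⟨_, rfl⟩
      have hY0 : 0 ≤ Y := by linarith
      have hXe : X = W + Y := by linarith
      have hid : (1 - t * W ^ 2) ^ 2 * X ^ 2 + 8 * W ^ 3 * t * ((X - W) * (t * X ^ 2 - 1)) =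
          W ^ 2 * ((1 - t * W ^ 2) - 4 * W * t * Y) ^ 2 +
            (1 - t * W ^ 2) ^ 2 * (Y * (2 * W + Y)) + 8 * W ^ 3 * t ^ 2 * Y ^ 3 := by
        rw [hXe]; ring
      have hnn : 0 ≤ (1 - t * W ^ 2) ^ 2 * X ^ 2 +
          8 * W ^ 3 * t * ((X - W) * (t * X ^ 2 - 1)) := by
        rw [hid]; positivity
      have hpos : 0 < 8 * W ^ 3 * t := by positivity
      have h5 : (1 - t * W ^ 2) ^ 2 * X ^ 2 ≤ 8 * W ^ 3 * t * Hs * X ^ 2 :=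
        mul_le_mul_of_nonneg_right h hX2.le
      have h6 : 0 ≤ (8 * W ^ 3 * t) * (Hs * X ^ 2 + (X - W) * (t * X ^ 2 - 1)) := by
        nlinarith
      exact nonneg_of_mul_nonneg_right h6 hpos
  · have h := h2 hd
    rcases le_total W X with hXW | hXW
    · have : 0 ≤ t * X ^ 2 - 1 := by
        have : W ^ 2 ≤ X ^ 2 := by nlinarith
        nlinarith
      have h3 : 0 ≤ (X - W) * (t * X ^ 2 - 1) := mul_nonneg (by linarith) this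
      have h4 : 0 ≤ Hs * X ^ 2 := by positivity
      linarith
    · -- X ≤ W
      have hA : X ^ 2 * (3 * W - 2 * X) ≤ W ^ 3 := by
        nlinarith [mul_nonneg (sq_nonneg (W - X)) (show (0:ℝ) ≤ W + 2 * X by linarith)]
      -- (W - X) (t X² - 1) W³ ≤ X² (W - X) (t W³ - 3 W + 2 X)
      have hB : (W - X) * (t * X ^ 2 - 1) * W ^ 3 ≤
          X ^ 2 * ((W - X) * (t * W ^ 3 - 3 * W + 2 * X)) := by
        have : 0 ≤ (W - X) * (W ^ 3 - X ^ 2 * (3 * W - 2 * X)) :=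
          mul_nonneg (by linarith) (by linarith)
        nlinarith
      have hC : (W - X) * (t * W ^ 3 - 3 * W + 2 * X) ≤ W ^ 2 * (t * W ^ 2 - 1) ^ 2 / 8 := by
        have : t * W ^ 3 - 3 * W + 2 * X = W * (t * W ^ 2 - 1) - 2 * (W - X) := by ring
        rw [this]
        nlinarith [sq_nonneg (W * (t * W ^ 2 - 1) - 4 * (W - X))]
      have hW3 : 0 < W ^ 3 := by positivity
      have hD : (W - X) * (t * X ^ 2 - 1) * W ^ 3 ≤ X ^ 2 * (W ^ 3 * Hs) := by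
        calc (W - X) * (t * X ^ 2 - 1) * W ^ 3
            ≤ X ^ 2 * ((W - X) * (t * W ^ 3 - 3 * W + 2 * X)) := hB
          _ ≤ X ^ 2 * (W ^ 2 * (t * W ^ 2 - 1) ^ 2 / 8) :=
              mul_le_mul_of_nonneg_left hC hX2.le
          _ ≤ X ^ 2 * (W ^ 3 * Hs) := by
              apply mul_le_mul_of_nonneg_left _ hX2.le
              have h7 : (t * W ^ 2 - 1) ^ 2 ≤ 8 * W * Hs := by nlinarith
              have h8 : 0 ≤ W ^ 2 := by positivity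
              nlinarith [mul_le_mul_of_nonneg_left h7 h8]
      have hE : 0 ≤ W ^ 3 * (Hs * X ^ 2 + (X - W) * (t * X ^ 2 - 1)) := by nlinarith
      exact nonneg_of_mul_nonneg_right hE hW3

/-- facts about the left branch: `v ∈ [0,1)`, `p = π(v)`, `H = H(v)` -/
structure Lf (v p H : ℝ) : Prop where
  v0 : 0 ≤ v
  v1 : v < 1
  H0 : 0 ≤ H
  p0 : 0 ≤ p
  p1 : p ≤ 13 / 64
  small : v ≤ 1 / 8 → p = 2 * v + 3 * v ^ 2 - 48 * v ^ 3 ∧ 24 * v ^ 4 ≤ H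
  large : 1 / 8 ≤ v → p = 13 / 64 ∧ 3 / 4 * (v - 1 / 10) ^ 2 ≤ H ∧ 3 / 512 ≤ H

/-! ### the condition for `δ ≥ 0` -/

theorem c1_SS {v1 v2 : ℝ} (a0 : 0 ≤ v1) (b0 : 0 ≤ v2) (a : v1 ≤ 1 / 8) (b : v2 ≤ 1 / 8)
    {H : ℝ} (hH : 24 * (v1 ^ 4 + v2 ^ 4) ≤ H)
    (hd : 0 ≤ 1 - (1 - ((2 * v1 + 3 * v1 ^ 2 - 48 * v1 ^ 3) +
      (2 * v2 + 3 * v2 ^ 2 - 48 * v2 ^ 3))) * (1 + (v1 + v2)) ^ 2) :
    (1 - (1 - ((2 * v1 + 3 * v1 ^ 2 - 48 * v1 ^ 3) +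
      (2 * v2 + 3 * v2 ^ 2 - 48 * v2 ^ 3))) * (1 + (v1 + v2)) ^ 2) ^ 2 ≤
    8 * (1 + (v1 + v2)) ^ 3 * (1 - ((2 * v1 + 3 * v1 ^ 2 - 48 * v1 ^ 3) +
      (2 * v2 + 3 * v2 ^ 2 - 48 * v2 ^ 3))) * H := by
  obtain ⟨V, hV⟩ : ∃ V, V = v1 + v2 := ⟨_, rfl⟩
  obtain ⟨S2, hS2⟩ : ∃ S2, S2 = v1 ^ 2 + v2 ^ 2 := ⟨_, rfl⟩
  obtain ⟨S3, hS3⟩ : ∃ S3, S3 = v1 ^ 3 + v2 ^ 3 := ⟨_, rfl⟩
  obtain ⟨S4, hS4⟩ : ∃ S4, S4 = v1 ^ 4 + v2 ^ 4 := ⟨_, rfl⟩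
  have hp : (2 * v1 + 3 * v1 ^ 2 - 48 * v1 ^ 3) + (2 * v2 + 3 * v2 ^ 2 - 48 * v2 ^ 3) =
      2 * V + 3 * S2 - 48 * S3 := by rw [hV, hS2, hS3]; ring
  rw [hp, ← hV] at hd ⊢
  rw [← hS4] at hH
  have hV0 : 0 ≤ V := by linarith
  have hV1 : V ≤ 1 / 4 := by linarith
  have hS20 : 0 ≤ S2 := by rw [hS2]; positivity
  have hS30 : 0 ≤ S3 := by rw [hS3]; positivity
  have hS40 : 0 ≤ S4 := by rw [hS4]; positivity
  have f1 : V ^ 2 ≤ 2 * S2 := by rw [hV, hS2]; nlinarith [sq_nonneg (v1 - v2)]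
  have f2 : V ^ 3 ≤ 4 * S3 := by
    rw [hV, hS3]; nlinarith [mul_nonneg (add_nonneg a0 b0) (sq_nonneg (v1 - v2))]
  have f3 : S2 * V ≤ 2 * S3 := by
    rw [hV, hS2, hS3]; nlinarith [mul_nonneg (add_nonneg a0 b0) (sq_nonneg (v1 - v2))]
  have f4 : S2 ^ 2 ≤ 2 * S4 := by
    rw [hS2, hS4]; nlinarith [sq_nonneg (v1 ^ 2 - v2 ^ 2)]
  have hδ : 1 - (1 - (2 * V + 3 * S2 - 48 * S3)) * (1 + V) ^ 2 =
      3 * V ^ 2 + 2 * V ^ 3 + (3 * S2 - 48 * S3) * (1 + V) ^ 2 := by ring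
  have hδ2 : 1 - (1 - (2 * V + 3 * S2 - 48 * S3)) * (1 + V) ^ 2 ≤ 9 * S2 := by
    rw [hδ]
    have g1 : S2 * V * V ≤ 2 * S3 * (1 / 4) := mul_le_mul f3 hV1 hV0 (by linarith)
    have g2 : 0 ≤ S3 * V := mul_nonneg hS30 hV0
    have g3 : 0 ≤ S3 * V ^ 2 := by positivity
    nlinarith
  have h27 : 27 / 32 ≤ (1 + V) ^ 3 * (1 - (2 * V + 3 * S2 - 48 * S3)) := by
    have g : ∀ v : ℝ, 0 ≤ v → 3 * v ^ 2 - 48 * v ^ 3 ≤ 1 / 576 := by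
      intro v hv
      nlinarith [mul_nonneg (sq_nonneg (v - 1 / 24)) (show (0:ℝ) ≤ v + 1 / 48 by linarith)]
    have g1 := g v1 a0
    have g2 := g v2 b0
    have g3 : 2 * V + 3 * S2 - 48 * S3 ≤ 2 * V + 1 / 288 := by
      rw [hS2, hS3]; linarith
    have g4 : (1 + V) ^ 3 * (1 - (2 * V + 1 / 288)) ≤
        (1 + V) ^ 3 * (1 - (2 * V + 3 * S2 - 48 * S3)) := by
      apply mul_le_mul_of_nonneg_left (by linarith) (by positivity)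
    have g5 : 27 / 32 ≤ (1 + V) ^ 3 * (1 - (2 * V + 1 / 288)) := by
      nlinarith [mul_nonneg hV0 (show (0:ℝ) ≤ 1 / 4 - V by linarith),
        mul_nonneg (mul_nonneg hV0 hV0) (show (0:ℝ) ≤ 1 / 4 - V by linarith),
        mul_nonneg (mul_nonneg (mul_nonneg hV0 hV0) hV0) (show (0:ℝ) ≤ 1 / 4 - V by linarith)]
    linarith
  calc _ ≤ (9 * S2) ^ 2 := by
        apply pow_le_pow_left₀ hd hδ2
    _ ≤ 162 * S4 := by nlinarith
    _ ≤ 8 * ((1 + V) ^ 3 * (1 - (2 * V + 3 * S2 - 48 * S3))) * H := by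
        have h1 : 8 * (27 / 32) * (24 * S4) ≤
            8 * ((1 + V) ^ 3 * (1 - (2 * V + 3 * S2 - 48 * S3))) * H := by
          apply mul_le_mul (by linarith) hH (by positivity) (by linarith)
        linarith
    _ = _ := by ring

theorem c1_SL {v1 v2 p1 H1 : ℝ} (a0 : 0 ≤ v1) (a : v1 ≤ 1 / 8) (b : 1 / 8 ≤ v2)
    (hp : p1 = 2 * v1 + 3 * v1 ^ 2 - 48 * v1 ^ 3) (hp1 : p1 ≤ 13 / 64)
    {H : ℝ} (hH1 : 0 ≤ H1) (hH : 3 / 512 ≤ H)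
    (hd : 0 ≤ 1 - (1 - (p1 + 13 / 64)) * (1 + (v1 + v2)) ^ 2) :
    (1 - (1 - (p1 + 13 / 64)) * (1 + (v1 + v2)) ^ 2) ^ 2 ≤
    8 * (1 + (v1 + v2)) ^ 3 * (1 - (p1 + 13 / 64)) * (H1 + H) := by
  have g : 3 * v1 ^ 2 - 48 * v1 ^ 3 ≤ 1 / 576 := by
    nlinarith [mul_nonneg (sq_nonneg (v1 - 1 / 24)) (show (0:ℝ) ≤ v1 + 1 / 48 by linarith)]
  have h1 : 51 / 64 - 1 / 576 - 2 * v1 ≤ 1 - (p1 + 13 / 64) := by rw [hp]; linarith
  have h2 : (9 / 8 + v1) ^ 2 ≤ (1 + (v1 + v2)) ^ 2 := by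
    apply pow_le_pow_left₀ (by linarith) (by linarith)
  have h3 : (51 / 64 - 1 / 576 - 2 * v1) * (9 / 8 + v1) ^ 2 ≤
      (1 - (p1 + 13 / 64)) * (1 + (v1 + v2)) ^ 2 := by
    apply mul_le_mul h1 h2 (by positivity) (by linarith)
  have h4 : 17 / 20 ≤ (51 / 64 - 1 / 576 - 2 * v1) * (9 / 8 + v1) ^ 2 := by
    nlinarith [mul_nonneg a0 (show (0:ℝ) ≤ 1 / 8 - v1 by linarith),
      mul_nonneg (mul_nonneg a0 a0) (show (0:ℝ) ≤ 1 / 8 - v1 by linarith)]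
  have h5 : 1 - (1 - (p1 + 13 / 64)) * (1 + (v1 + v2)) ^ 2 ≤ 3 / 20 := by linarith
  have h6 : (9 / 8 : ℝ) ^ 3 ≤ (1 + (v1 + v2)) ^ 3 := by
    apply pow_le_pow_left₀ (by norm_num) (by linarith)
  calc _ ≤ (3 / 20 : ℝ) ^ 2 := pow_le_pow_left₀ hd h5 2
    _ ≤ (8 * (9 / 8 : ℝ) ^ 3) * (19 / 32) * (3 / 512) := by norm_num
    _ ≤ _ := by
        apply mul_le_mul _ (by linarith) (by norm_num) _
        · apply mul_le_mul (by linarith) (by linarith) (by norm_num) (by positivity)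
        · apply mul_nonneg (by positivity) (by linarith)

theorem c1_LL {v1 v2 H1 H2 : ℝ} (a : 1 / 8 ≤ v1) (b : 1 / 8 ≤ v2)
    (hH1 : 3 / 512 ≤ H1) (hH2 : 3 / 512 ≤ H2)
    (hd : 0 ≤ 1 - (1 - (13 / 64 + 13 / 64)) * (1 + (v1 + v2)) ^ 2) :
    (1 - (1 - (13 / 64 + 13 / 64 : ℝ)) * (1 + (v1 + v2)) ^ 2) ^ 2 ≤
    8 * (1 + (v1 + v2)) ^ 3 * (1 - (13 / 64 + 13 / 64)) * (H1 + H2) := by
  have h2 : (5 / 4 : ℝ) ^ 2 ≤ (1 + (v1 + v2)) ^ 2 := by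
    apply pow_le_pow_left₀ (by norm_num) (by linarith)
  have h5 : 1 - (1 - (13 / 64 + 13 / 64 : ℝ)) * (1 + (v1 + v2)) ^ 2 ≤ 3 / 40 := by
    nlinarith
  have h6 : (5 / 4 : ℝ) ^ 3 ≤ (1 + (v1 + v2)) ^ 3 := by
    apply pow_le_pow_left₀ (by norm_num) (by linarith)
  calc _ ≤ (3 / 40 : ℝ) ^ 2 := pow_le_pow_left₀ hd h5 2
    _ ≤ (8 * (5 / 4 : ℝ) ^ 3) * (19 / 32) * (3 / 512) := by norm_num
    _ ≤ _ := by
        apply mul_le_mul _ (by linarith) (by norm_num) _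
        · apply mul_le_mul (by linarith) (by norm_num) (by norm_num) (by positivity)
        · apply mul_nonneg (by positivity) (by norm_num)

/-! ### the condition for `δ ≤ 0` -/

theorem c2_SS {v1 v2 : ℝ} (a0 : 0 ≤ v1) (b0 : 0 ≤ v2) (a : v1 ≤ 1 / 8) (b : v2 ≤ 1 / 8)
    {H : ℝ} (hH : 24 * (v1 ^ 4 + v2 ^ 4) ≤ H)
    (hd : 1 - (1 - ((2 * v1 + 3 * v1 ^ 2 - 48 * v1 ^ 3) +
      (2 * v2 + 3 * v2 ^ 2 - 48 * v2 ^ 3))) * (1 + (v1 + v2)) ^ 2 ≤ 0) :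
    (1 - (1 - ((2 * v1 + 3 * v1 ^ 2 - 48 * v1 ^ 3) +
      (2 * v2 + 3 * v2 ^ 2 - 48 * v2 ^ 3))) * (1 + (v1 + v2)) ^ 2) ^ 2 ≤
    8 * (1 + (v1 + v2)) * H := by
  obtain ⟨V, hV⟩ : ∃ V, V = v1 + v2 := ⟨_, rfl⟩
  obtain ⟨S2, hS2⟩ : ∃ S2, S2 = v1 ^ 2 + v2 ^ 2 := ⟨_, rfl⟩
  obtain ⟨S3, hS3⟩ : ∃ S3, S3 = v1 ^ 3 + v2 ^ 3 := ⟨_, rfl⟩
  obtain ⟨S4, hS4⟩ : ∃ S4, S4 = v1 ^ 4 + v2 ^ 4 := ⟨_, rfl⟩
  have hp : (2 * v1 + 3 * v1 ^ 2 - 48 * v1 ^ 3) + (2 * v2 + 3 * v2 ^ 2 - 48 * v2 ^ 3) =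
      2 * V + 3 * S2 - 48 * S3 := by rw [hV, hS2, hS3]; ring
  rw [hp, ← hV] at hd ⊢
  rw [← hS4] at hH
  have hV0 : 0 ≤ V := by linarith
  have hV1 : V ≤ 1 / 4 := by linarith
  have hS20 : 0 ≤ S2 := by rw [hS2]; positivity
  have hS30 : 0 ≤ S3 := by rw [hS3]; positivity
  have hS40 : 0 ≤ S4 := by rw [hS4]; positivity
  have f5 : S3 ≤ S2 / 8 := by
    rw [hS2, hS3]
    nlinarith [mul_nonneg (sq_nonneg v1) (show (0:ℝ) ≤ 1 / 8 - v1 by linarith),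
      mul_nonneg (sq_nonneg v2) (show (0:ℝ) ≤ 1 / 8 - v2 by linarith)]
  have f4 : S2 ^ 2 ≤ 2 * S4 := by
    rw [hS2, hS4]; nlinarith [sq_nonneg (v1 ^ 2 - v2 ^ 2)]
  have hδ : 1 - (1 - (2 * V + 3 * S2 - 48 * S3)) * (1 + V) ^ 2 =
      3 * V ^ 2 + 2 * V ^ 3 + (3 * S2 - 48 * S3) * (1 + V) ^ 2 := by ring
  have hW : (1 + V) ^ 2 ≤ 25 / 16 := by nlinarith
  have hδ2 : -(5 * S2) ≤ 1 - (1 - (2 * V + 3 * S2 - 48 * S3)) * (1 + V) ^ 2 := by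
    rw [hδ]
    have g1 : -(3 * S2) ≤ 3 * S2 - 48 * S3 := by linarith
    have g2 : -(3 * S2) * (1 + V) ^ 2 ≤ (3 * S2 - 48 * S3) * (1 + V) ^ 2 :=
      mul_le_mul_of_nonneg_right g1 (by positivity)
    have g3 : S2 * (1 + V) ^ 2 ≤ S2 * (25 / 16) := mul_le_mul_of_nonneg_left hW hS20
    have g4 : 0 ≤ V ^ 2 := by positivity
    have g5 : 0 ≤ V ^ 3 := by positivity
    linarith
  have h9 : (1 - (1 - (2 * V + 3 * S2 - 48 * S3)) * (1 + V) ^ 2) ^ 2 ≤ (5 * S2) ^ 2 := by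
    apply sq_le_sq'
    · exact hδ2
    · linarith
  have hHn : 0 ≤ H := by linarith
  nlinarith [mul_nonneg hV0 hHn]

theorem c2_SL {v1 v2 p1 H1 H : ℝ} (a0 : 0 ≤ v1) (a : v1 ≤ 1 / 8) (b : 1 / 8 ≤ v2)
    (b1 : v2 < 1)
    (hp : p1 = 2 * v1 + 3 * v1 ^ 2 - 48 * v1 ^ 3)
    (hH1 : 0 ≤ H1) (hH : 3 / 4 * (v2 - 1 / 10) ^ 2 ≤ H)
    (hd : 1 - (1 - (p1 + 13 / 64)) * (1 + (v1 + v2)) ^ 2 ≤ 0) :
    (1 - (1 - (p1 + 13 / 64)) * (1 + (v1 + v2)) ^ 2) ^ 2 ≤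
    8 * (1 + (v1 + v2)) * (H1 + H) := by
  have h1 : 13 / 8 * v1 ≤ p1 := by
    rw [hp]
    nlinarith [mul_nonneg a0 (mul_nonneg (show (0:ℝ) ≤ 1 / 8 - v1 by linarith)
      (show (0:ℝ) ≤ 3 + 48 * v1 by linarith))]
  have h2 : (1 - (p1 + 13 / 64)) * (1 + (v1 + v2)) ^ 2 ≤
      (51 / 64 - 13 / 8 * v1) * (1 + (v1 + v2)) ^ 2 := by
    apply mul_le_mul_of_nonneg_right (by linarith) (by positivity)
  have h3 : (51 / 64 - 13 / 8 * v1) * (1 + (v1 + v2)) ^ 2 ≤ 51 / 64 * (1 + v2) ^ 2 := by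
    have e : 51 / 64 * (1 + v2) ^ 2 - (51 / 64 - 13 / 8 * v1) * (1 + (v1 + v2)) ^ 2 =
        v1 * (13 / 8 * (1 + (v1 + v2)) ^ 2 - 51 / 64 * (2 * (1 + v2) + v1)) := by ring
    have e2 : 0 ≤ 13 / 8 * (1 + (v1 + v2)) ^ 2 - 51 / 64 * (2 * (1 + v2) + v1) := by
      nlinarith [mul_nonneg a0 (show (0:ℝ) ≤ v2 by linarith)]
    have := mul_nonneg a0 e2
    linarith
  have h4 : 51 / 64 * (1 + v2) ^ 2 - 1 ≤ 2 * ((v2 - 1 / 10) * (1 + 2 / 5 * v2)) := by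
    nlinarith
  have h5 : (1 - (1 - (p1 + 13 / 64)) * (1 + (v1 + v2)) ^ 2) ^ 2 ≤
      (2 * ((v2 - 1 / 10) * (1 + 2 / 5 * v2))) ^ 2 := by
    apply sq_le_sq'
    · linarith
    · have : 0 ≤ (v2 - 1 / 10) * (1 + 2 / 5 * v2) := mul_nonneg (by linarith) (by linarith)
      linarith
  have h6 : (1 + 2 / 5 * v2) ^ 2 ≤ 1 + v2 := by nlinarith
  have hHn : 0 ≤ H := le_trans (by positivity) hH
  have h7 : (2 * ((v2 - 1 / 10) * (1 + 2 / 5 * v2))) ^ 2 ≤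
      4 * ((v2 - 1 / 10) ^ 2 * (1 + v2)) := by
    have := mul_le_mul_of_nonneg_left h6 (sq_nonneg (v2 - 1 / 10))
    calc (2 * ((v2 - 1 / 10) * (1 + 2 / 5 * v2))) ^ 2 =
        4 * ((v2 - 1 / 10) ^ 2 * (1 + 2 / 5 * v2) ^ 2) := by ring
      _ ≤ _ := by linarith
  have h8 : (v2 - 1 / 10) ^ 2 * (1 + v2) ≤ (4 / 3 * (H1 + H)) * (1 + (v1 + v2)) := by
    apply mul_le_mul (by linarith) (by linarith) (by linarith) (by linarith)
  have h9 : 0 ≤ (H1 + H) * (1 + (v1 + v2)) :=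
    mul_nonneg (by linarith) (by linarith)
  calc _ ≤ (2 * ((v2 - 1 / 10) * (1 + 2 / 5 * v2))) ^ 2 := h5
    _ ≤ 4 * ((v2 - 1 / 10) ^ 2 * (1 + v2)) := h7
    _ ≤ 4 * ((4 / 3 * (H1 + H)) * (1 + (v1 + v2))) := by linarith
    _ = 16 / 3 * ((H1 + H) * (1 + (v1 + v2))) := by ring
    _ ≤ 8 * ((H1 + H) * (1 + (v1 + v2))) := by linarith
    _ = _ := by ring

theorem c2_LL {v1 v2 H1 H2 : ℝ} (a : 1 / 8 ≤ v1) (b : 1 / 8 ≤ v2) (a1 : v1 < 1) (b1 : v2 < 1)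
    (hH1 : 3 / 4 * (v1 - 1 / 10) ^ 2 ≤ H1) (hH2 : 3 / 4 * (v2 - 1 / 10) ^ 2 ≤ H2) :
    (1 - (1 - (13 / 64 + 13 / 64 : ℝ)) * (1 + (v1 + v2)) ^ 2) ^ 2 ≤
    8 * (1 + (v1 + v2)) * (H1 + H2) := by
  obtain ⟨V, hV⟩ : ∃ V, V = v1 + v2 := ⟨_, rfl⟩
  have hV1 : 1 / 4 ≤ V := by linarith
  have hV2 : V ≤ 2 := by linarith
  have h1 : 3 / 8 * (V - 1 / 5) ^ 2 ≤ H1 + H2 := by
    rw [hV]; nlinarith [sq_nonneg (v1 - v2)]
  rw [← hV]
  have h2 : (1 - (1 - (13 / 64 + 13 / 64 : ℝ)) * (1 + V) ^ 2) ^ 2 ≤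
      3 * (1 + V) * (V - 1 / 5) ^ 2 := by
    nlinarith [mul_nonneg (show (0:ℝ) ≤ V - 1 / 4 by linarith) (show (0:ℝ) ≤ 2 - V by linarith),
      mul_nonneg (mul_nonneg (show (0:ℝ) ≤ V - 1 / 4 by linarith)
        (show (0:ℝ) ≤ 2 - V by linarith)) (show (0:ℝ) ≤ V by linarith),
      mul_nonneg (mul_nonneg (show (0:ℝ) ≤ V - 1 / 4 by linarith)
        (show (0:ℝ) ≤ 2 - V by linarith)) (sq_nonneg V),
      mul_nonneg (mul_nonneg (show (0:ℝ) ≤ V - 1 / 4 by linarith)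
        (show (0:ℝ) ≤ 2 - V by linarith)) (sq_nonneg (V - 1))]
  have h3 : 8 * (1 + V) * (3 / 8 * (V - 1 / 5) ^ 2) ≤ 8 * (1 + V) * (H1 + H2) :=
    mul_le_mul_of_nonneg_left h1 (by linarith)
  linarith

theorem baseC {v1 p1 H1 v2 p2 H2 : ℝ} (a : Lf v1 p1 H1) (b : Lf v2 p2 H2) (x : ℝ) (hx : 0 ≤ x) :
    0 ≤ H1 + H2 + (x - (v1 + v2)) * (PP x - (p1 + p2)) := by
  have ha0 := a.v0
  have hb0 := b.v0
  have ha1 := a.v1
  have hb1 := b.v1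
  have haH := a.H0
  have hbH := b.H0
  have hap := a.p0
  have hbp := b.p0
  have hap1 := a.p1
  have hbp1 := b.p1
  rcases le_total v1 (1 / 8) with h1 | h1 <;> rcases le_total v2 (1 / 8) with h2 | h2
  · obtain ⟨e1, f1⟩ := a.small h1
    obtain ⟨e2, f2⟩ := b.small h2
    apply key x (v1 + v2) (p1 + p2) (H1 + H2) hx (by linarith) (by linarith) (by linarith)
    · intro hd
      rw [e1, e2] at hd ⊢
      exact c1_SS ha0 hb0 h1 h2 (by linarith) hd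
    · intro hd
      rw [e1, e2] at hd ⊢
      exact c2_SS ha0 hb0 h1 h2 (by linarith) hd
  · obtain ⟨e1, f1⟩ := a.small h1
    obtain ⟨e2, f2, g2⟩ := b.large h2
    apply key x (v1 + v2) (p1 + p2) (H1 + H2) hx (by linarith) (by linarith) (by linarith)
    · intro hd
      rw [e2] at hd ⊢
      exact c1_SL ha0 h1 h2 e1 hap1 haH g2 hd
    · intro hd
      rw [e2] at hd ⊢
      exact c2_SL ha0 h1 h2 hb1 e1 haH f2 hd
  · obtain ⟨e1, f1, g1⟩ := a.large h1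
    obtain ⟨e2, f2⟩ := b.small h2
    rw [add_comm v1 v2, add_comm p1 p2, add_comm H1 H2]
    apply key x (v2 + v1) (p2 + p1) (H2 + H1) hx (by linarith) (by linarith) (by linarith)
    · intro hd
      rw [e1] at hd ⊢
      exact c1_SL hb0 h2 h1 e2 hbp1 hbH g1 hd
    · intro hd
      rw [e1] at hd ⊢
      exact c2_SL hb0 h2 h1 ha1 e2 hbH f1 hd
  · obtain ⟨e1, f1, g1⟩ := a.large h1
    obtain ⟨e2, f2, g2⟩ := b.large h2
    apply key x (v1 + v2) (p1 + p2) (H1 + H2) hx (by linarith) (by linarith) (by linarith)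
    · intro hd
      rw [e1, e2] at hd ⊢
      exact c1_LL h1 h2 g1 g2 hd
    · intro hd
      rw [e1, e2]
      exact c2_LL h1 h2 ha1 hb1 f1 f2

/-! ### two points on the right, one on the left -/

theorem Lf.zero : Lf 0 0 0 where
  v0 := le_refl _
  v1 := by norm_num
  H0 := le_refl _
  p0 := le_refl _
  p1 := by norm_num
  small := fun _ => ⟨by norm_num, by norm_num⟩
  large := fun h => absurd h (by norm_num)

theorem PP_nonneg {x : ℝ} (hx : 0 ≤ x) : 0 ≤ PP x := by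
  unfold PP
  rw [sub_nonneg, div_le_one (by positivity)]
  nlinarith

theorem PP_subadd {x y : ℝ} (hx : 0 ≤ x) (hy : 0 ≤ y) : PP (x + y) ≤ PP x + PP y := by
  unfold PP
  have h : 1 / (1 + x) ^ 2 + 1 / (1 + y) ^ 2 ≤ 1 + 1 / (1 + (x + y)) ^ 2 := by
    have h1 : 1 / (1 + x) ^ 2 + 1 / (1 + y) ^ 2 =
        ((1 + y) ^ 2 + (1 + x) ^ 2) / ((1 + x) ^ 2 * (1 + y) ^ 2) := by
      field_simp
    have h2 : 1 + 1 / (1 + (x + y)) ^ 2 = ((1 + (x + y)) ^ 2 + 1) / (1 + (x + y)) ^ 2 := by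
      field_simp
    rw [h1, h2, div_le_div_iff₀ (by positivity) (by positivity)]
    have hxy : 0 ≤ x * y := mul_nonneg hx hy
    obtain ⟨q, hq⟩ : ∃ q, q = x * y := ⟨_, rfl⟩
    obtain ⟨s, hs⟩ : ∃ s, s = x + y := ⟨_, rfl⟩
    have e1 : (1 + y) ^ 2 + (1 + x) ^ 2 = 2 + 2 * s + s ^ 2 - 2 * q := by rw [hq, hs]; ring
    have e2 : (1 + x) ^ 2 * (1 + y) ^ 2 = (1 + s + q) ^ 2 := by rw [hq, hs]; ring
    rw [e1, e2, ← hs]
    have hs0 : 0 ≤ s := by rw [hs]; linarith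
    have hq0 : 0 ≤ q := by rw [hq]; exact hxy
    have e3 : ((1 + s) ^ 2 + 1) * (1 + s + q) ^ 2 -
        (2 + 2 * s + s ^ 2 - 2 * q) * (1 + s) ^ 2 =
        ((1 + s) ^ 2 + 1) * (2 * (1 + s) * q + q ^ 2) + 2 * q * (1 + s) ^ 2 := by ring
    have e4 : 0 ≤ ((1 + s) ^ 2 + 1) * (2 * (1 + s) * q + q ^ 2) + 2 * q * (1 + s) ^ 2 := by
      positivity
    linarith
  linarith

theorem PP_tangent {x Z : ℝ} (hx : 0 ≤ x) (hZ : 0 < Z) :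
    PP x ≤ 1 - (3 * Z - 2 * (1 + x)) / Z ^ 3 := by
  unfold PP
  have : (3 * Z - 2 * (1 + x)) / Z ^ 3 ≤ 1 / (1 + x) ^ 2 := by
    rw [div_le_div_iff₀ (by positivity) (by positivity)]
    nlinarith [mul_nonneg (sq_nonneg (Z - (1 + x))) (show (0:ℝ) ≤ Z + 2 * (1 + x) by linarith)]
  linarith

theorem baseB {v p H : ℝ} (a : Lf v p H) (x1 x2 : ℝ) (h1 : 0 ≤ x1) (h2 : 0 ≤ x2) :
    0 ≤ H + (x1 + x2 - v) * (PP x1 + PP x2 - p) := by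
  have hv0 := a.v0
  have hv1 := a.v1
  have hH0 := a.H0
  have hp0 := a.p0
  rcases le_total v (x1 + x2) with hc | hc
  · have h := baseC a Lf.zero (x1 + x2) (by linarith)
    have hs := PP_subadd h1 h2
    have : (x1 + x2 - v) * (PP (x1 + x2) - p) ≤ (x1 + x2 - v) * (PP x1 + PP x2 - p) :=
      mul_le_mul_of_nonneg_left (by linarith) (by linarith)
    simp only [add_zero] at h
    linarith
  · obtain ⟨y, hy⟩ : ∃ y, y = v - (x1 + x2) := ⟨_, rfl⟩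
    obtain ⟨Z, hZ⟩ : ∃ Z, Z = 1 + v / 2 := ⟨_, rfl⟩
    have hy0 : 0 ≤ y := by linarith
    have hZ1 : 1 ≤ Z := by linarith
    have hZ2 : Z ≤ 3 / 2 := by linarith
    have t1 := PP_tangent h1 (show 0 < Z by linarith)
    have t2 := PP_tangent h2 (show 0 < Z by linarith)
    obtain ⟨D, hD⟩ : ∃ D, D = 2 - 2 / Z ^ 2 - p := ⟨_, rfl⟩
    have hsum : PP x1 + PP x2 - p ≤ D - 2 * y / Z ^ 3 := by
      have e : (3 * Z - 2 * (1 + x1)) / Z ^ 3 + (3 * Z - 2 * (1 + x2)) / Z ^ 3 =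
          2 / Z ^ 2 + 2 * y / Z ^ 3 := by
        have : (3 * Z - 2 * (1 + x1)) + (3 * Z - 2 * (1 + x2)) = 2 * Z + 2 * y := by
          rw [hy, hZ]; ring
        rw [← add_div, this]
        field_simp
      linarith
    have hmain : y * (D - 2 * y / Z ^ 3) ≤ H := by
      rcases le_total D 0 with hD0 | hD0
      · have h3 : 0 ≤ 2 * y / Z ^ 3 := by positivity
        nlinarith
      · have hDZ : D * Z ^ 2 = 2 * Z ^ 2 - 2 - p * Z ^ 2 := by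
          rw [hD]; field_simp
        have hZ3 : 0 < Z ^ 3 := by positivity
        have hq : y * (D - 2 * y / Z ^ 3) ≤ Z ^ 3 * D ^ 2 / 8 := by
          have e : Z ^ 3 * D ^ 2 / 8 - y * (D - 2 * y / Z ^ 3) =
              (Z ^ 3 * D - 4 * y) ^ 2 / (8 * Z ^ 3) := by
            field_simp
            ring
          have : 0 ≤ (Z ^ 3 * D - 4 * y) ^ 2 / (8 * Z ^ 3) := by positivity
          linarith
        refine hq.trans ?_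
        have hDD : D ≤ D * Z ^ 2 := le_mul_of_one_le_right hD0 (one_le_pow₀ hZ1)
        rcases le_total v (1 / 8) with h8 | h8
        · obtain ⟨e1, f1⟩ := a.small h8
          have hb : D ≤ 2 * v ^ 2 := by
            refine hDD.trans ?_
            rw [hDZ, e1, hZ]
            have e : 2 * (1 + v / 2) ^ 2 - 2 - (2 * v + 3 * v ^ 2 - 48 * v ^ 3) * (1 + v / 2) ^ 2 =
                v ^ 2 * (-9 / 2 + 89 / 2 * v + 189 / 4 * v ^ 2 + 12 * v ^ 3) := by ring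
            rw [e, mul_comm 2 (v ^ 2)]
            apply mul_le_mul_of_nonneg_left _ (sq_nonneg v)
            have g1 : v ^ 2 ≤ 1 / 64 := by nlinarith
            have g2 : v ^ 3 ≤ 1 / 512 := by
              have := pow_le_pow_left₀ hv0 h8 3
              norm_num at this ⊢
              exact this
            linarith
          have hb2 : D ^ 2 ≤ (2 * v ^ 2) ^ 2 := pow_le_pow_left₀ hD0 hb 2
          have hZ3' : Z ^ 3 ≤ (3 / 2 : ℝ) ^ 3 := pow_le_pow_left₀ (by linarith) hZ2 3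
          have : Z ^ 3 * D ^ 2 ≤ (3 / 2 : ℝ) ^ 3 * (2 * v ^ 2) ^ 2 :=
            mul_le_mul hZ3' hb2 (sq_nonneg _) (by positivity)
          have h4 : 0 ≤ v ^ 4 := by positivity
          nlinarith
        · obtain ⟨e1, f1, g1⟩ := a.large h8
          have hb : D * Z ^ 2 ≤ 12 / 5 * (v - 1 / 10) := by
            rw [hDZ, e1, hZ]
            nlinarith
          have hb0 : 0 ≤ D * Z ^ 2 := by positivity
          have hb2 : (D * Z ^ 2) ^ 2 ≤ (12 / 5 * (v - 1 / 10)) ^ 2 :=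
            pow_le_pow_left₀ hb0 hb 2
          have hb3 : Z ^ 3 * D ^ 2 ≤ (D * Z ^ 2) ^ 2 := by
            have : (D * Z ^ 2) ^ 2 = Z * (Z ^ 3 * D ^ 2) := by ring
            rw [this]
            have : 0 ≤ Z ^ 3 * D ^ 2 := by positivity
            nlinarith
          nlinarith [sq_nonneg (v - 1 / 10)]
    have e : (x1 + x2 - v) * (PP x1 + PP x2 - p) = -(y * (PP x1 + PP x2 - p)) := by
      rw [hy]; ring
    rw [e]
    have : y * (PP x1 + PP x2 - p) ≤ y * (D - 2 * y / Z ^ 3) :=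
      mul_le_mul_of_nonneg_left hsum hy0
    linarith

/-! ### the quadratic tail and the final case distinction -/

/-- facts about the right branch -/
structure Rt (x p h : ℝ) : Prop where
  x0 : 0 ≤ x
  ex : ∃ t : ℝ, 0 ≤ t ∧ p = PP x + t / 2 ∧ -(t ^ 2 / 4) - 2 * t ≤ h ∧ (t = 0 ∨ x = t + 4)

theorem PP_large {x : ℝ} (hx : 4 ≤ x) : 24 / 25 ≤ PP x := by
  unfold PP
  have : 1 / (1 + x) ^ 2 ≤ 1 / 25 := by
    apply one_div_le_one_div_of_le (by norm_num)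
    nlinarith
  linarith

theorem RRR {x1 p1 h1 x2 p2 h2 x3 p3 h3 : ℝ} (a : Rt x1 p1 h1) (b : Rt x2 p2 h2)
    (c : Rt x3 p3 h3) : 0 ≤ h1 + h2 + h3 + (x1 + x2 + x3) * (p1 + p2 + p3) := by
  obtain ⟨a0, t1, ht1, e1, f1, g1⟩ := a
  obtain ⟨b0, t2, ht2, e2, f2, g2⟩ := b
  obtain ⟨c0, t3, ht3, e3, f3, g3⟩ := c
  have k : ∀ {x t : ℝ}, 0 ≤ x → 0 ≤ t → (t = 0 ∨ x = t + 4) → 0 ≤ x * (t / 2) - t ^ 2 / 4 - 2 * t := by
    intro x t hx ht h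
    rcases h with h | h
    · rw [h]; norm_num
    · rw [h]; nlinarith
  have k1 := k a0 ht1 g1
  have k2 := k b0 ht2 g2
  have k3 := k c0 ht3 g3
  have P1 := PP_nonneg a0
  have P2 := PP_nonneg b0
  have P3 := PP_nonneg c0
  rw [e1, e2, e3]
  have m : 0 ≤ (x1 + x2 + x3) * (PP x1 + PP x2 + PP x3) :=
    mul_nonneg (by linarith) (by linarith)
  have m1 : 0 ≤ x1 * t2 := mul_nonneg a0 ht2
  have m2 : 0 ≤ x1 * t3 := mul_nonneg a0 ht3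
  have m3 : 0 ≤ x2 * t1 := mul_nonneg b0 ht1
  have m4 : 0 ≤ x2 * t3 := mul_nonneg b0 ht3
  have m5 : 0 ≤ x3 * t1 := mul_nonneg c0 ht1
  have m6 : 0 ≤ x3 * t2 := mul_nonneg c0 ht2
  nlinarith

theorem RRL {x1 p1 h1 x2 p2 h2 v p H : ℝ} (a : Rt x1 p1 h1) (b : Rt x2 p2 h2)
    (c : Lf v p H) : 0 ≤ h1 + h2 + H + (x1 + x2 - v) * (p1 + p2 - p) := by
  obtain ⟨a0, t1, ht1, e1, f1, g1⟩ := a
  obtain ⟨b0, t2, ht2, e2, f2, g2⟩ := b
  have hv0 := c.v0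
  have hv1 := c.v1
  have hH0 := c.H0
  have hp0 := c.p0
  have hp1 := c.p1
  have P1 := PP_nonneg a0
  have P2 := PP_nonneg b0
  rw [e1, e2]
  rcases g1 with g1 | g1 <;> rcases g2 with g2 | g2
  · have := baseB c x1 x2 a0 b0
    rw [g1] at f1 ⊢
    rw [g2] at f2 ⊢
    norm_num at f1 f2 ⊢
    linarith
  · rw [g1] at f1 ⊢
    norm_num at f1 ⊢
    have hb : 24 / 25 ≤ PP x2 := PP_large (by linarith)
    have hs : t2 + 3 ≤ x1 + x2 - v := by linarith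
    have hP : 3 / 4 ≤ PP x1 + PP x2 - p := by linarith
    have h3 : (t2 + 3) * (3 / 4 + t2 / 2) ≤ (x1 + x2 - v) * (PP x1 + (PP x2 + t2 / 2) - p) := by
      apply mul_le_mul hs (by linarith) (by positivity) (by linarith)
    nlinarith [sq_nonneg (t2 - 1)]
  · rw [g2] at f2 ⊢
    norm_num at f2 ⊢
    have hb : 24 / 25 ≤ PP x1 := PP_large (by linarith)
    have hs : t1 + 3 ≤ x1 + x2 - v := by linarith
    have hP : 3 / 4 ≤ PP x1 + PP x2 - p := by linarith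
    have h3 : (t1 + 3) * (3 / 4 + t1 / 2) ≤ (x1 + x2 - v) * ((PP x1 + t1 / 2) + PP x2 - p) := by
      apply mul_le_mul hs (by linarith) (by positivity) (by linarith)
    nlinarith [sq_nonneg (t1 - 1)]
  · have hb : 24 / 25 ≤ PP x1 := PP_large (by linarith)
    have hs : t1 + t2 + 7 ≤ x1 + x2 - v := by linarith
    have hP : 3 / 4 ≤ PP x1 + PP x2 - p := by linarith
    have h3 : (t1 + t2 + 7) * (3 / 4 + (t1 + t2) / 2) ≤
        (x1 + x2 - v) * ((PP x1 + t1 / 2) + (PP x2 + t2 / 2) - p) := by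
      apply mul_le_mul hs (by linarith) (by positivity) (by linarith)
    nlinarith [mul_nonneg ht1 ht2]

theorem RLL {x p h v1 p1 H1 v2 p2 H2 : ℝ} (a : Rt x p h) (b : Lf v1 p1 H1)
    (c : Lf v2 p2 H2) : 0 ≤ h + H1 + H2 + (x - v1 - v2) * (p - p1 - p2) := by
  obtain ⟨a0, t, ht, e, f, g⟩ := a
  have hv1 := b.v1
  have hv2 := c.v1
  have hH1 := b.H0
  have hH2 := c.H0
  have hp1 := b.p1
  have hp2 := c.p1
  have q1 := b.p0
  have q2 := c.p0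
  rw [e]
  rcases g with g | g
  · have := baseC b c x a0
    rw [g] at f ⊢
    norm_num at f ⊢
    have e2 : (x - v1 - v2) * (PP x - p1 - p2) = (x - (v1 + v2)) * (PP x - (p1 + p2)) := by ring
    rw [e2]
    linarith
  · have hb : 24 / 25 ≤ PP x := PP_large (by linarith)
    have hs : t + 2 ≤ x - v1 - v2 := by linarith
    have hP : 11 / 20 ≤ PP x - p1 - p2 := by linarith
    have h3 : (t + 2) * (11 / 20 + t / 2) ≤ (x - v1 - v2) * (PP x + t / 2 - p1 - p2) := by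
      apply mul_le_mul hs (by linarith) (by positivity) (by linarith)
    nlinarith [sq_nonneg (t - 1)]

theorem LLL {v1 p1 H1 v2 p2 H2 v3 p3 H3 : ℝ} (a : Lf v1 p1 H1) (b : Lf v2 p2 H2)
    (c : Lf v3 p3 H3) : 0 ≤ H1 + H2 + H3 + (v1 + v2 + v3) * (p1 + p2 + p3) := by
  have h1 := a.H0
  have h2 := b.H0
  have h3 := c.H0
  have m := mul_nonneg (add_nonneg (add_nonneg a.v0 b.v0) c.v0)
    (add_nonneg (add_nonneg a.p0 b.p0) c.p0)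
  linarith

end

end Vale.Agent.P046.Psi
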