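import Vale.Agent.P046.Defs
import Vale.Agent.P046.PsiA

/-!
P046, row [PSI]: a one-variable potential with the three-variable inequality.
-/

namespace Vale.Agent.P046.Psi

noncomputable section

/-- the potential -/
def psi (y : ℝ) : ℝ :=
  if 1 ≤ y then (y - 1) ^ 2 / y + (max (y - 5) 0) ^ 2 / 4
  else if 7 / 8 ≤ y then (1 - y) ^ 2 + (1 - y) ^ 3 - 12 * (1 - y) ^ 4
  else 13 / 64 * (1 - y) - 11 / 1024

/-- its derivative -/
def dpsi (y : ℝ) : ℝ :=
  if 1 ≤ y then 1 - 1 / y ^ 2 + max (y - 5) 0 / 2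
  else if 7 / 8 ≤ y then -(2 * (1 - y) + 3 * (1 - y) ^ 2 - 48 * (1 - y) ^ 3)
  else -(13 / 64)

theorem psi_R {y : ℝ} (h : 1 ≤ y) : psi y = (y - 1) ^ 2 / y + (max (y - 5) 0) ^ 2 / 4 := by
  unfold psi; rw [if_pos h]

theorem dpsi_R {y : ℝ} (h : 1 ≤ y) : dpsi y = 1 - 1 / y ^ 2 + max (y - 5) 0 / 2 := by
  unfold dpsi; rw [if_pos h]

theorem psi_M {y : ℝ} (h : 7 / 8 ≤ y) (h' : y ≤ 1) :
    psi y = (1 - y) ^ 2 + (1 - y) ^ 3 - 12 * (1 - y) ^ 4 := by
  rcases h'.lt_or_eq with h1 | h1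
  · unfold psi; rw [if_neg (not_le.2 h1), if_pos h]
  · rw [h1, psi_R le_rfl, max_eq_right (by norm_num)]; norm_num

theorem dpsi_M {y : ℝ} (h : 7 / 8 ≤ y) (h' : y ≤ 1) :
    dpsi y = -(2 * (1 - y) + 3 * (1 - y) ^ 2 - 48 * (1 - y) ^ 3) := by
  rcases h'.lt_or_eq with h1 | h1
  · unfold dpsi; rw [if_neg (not_le.2 h1), if_pos h]
  · rw [h1, dpsi_R le_rfl, max_eq_right (by norm_num)]; norm_num

theorem psi_L {y : ℝ} (h : y ≤ 7 / 8) : psi y = 13 / 64 * (1 - y) - 11 / 1024 := by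
  rcases h.lt_or_eq with h1 | h1
  · unfold psi; rw [if_neg (by linarith), if_neg (not_le.2 h1)]
  · rw [h1, psi_M le_rfl (by norm_num)]; norm_num

theorem dpsi_L {y : ℝ} (h : y ≤ 7 / 8) : dpsi y = -(13 / 64) := by
  rcases h.lt_or_eq with h1 | h1
  · unfold dpsi; rw [if_neg (by linarith), if_neg (not_le.2 h1)]
  · rw [h1, dpsi_M le_rfl (by norm_num)]; norm_num

/-- Lipschitz bound for the derivative and the two Taylor bounds -/
def BB (y z : ℝ) : Prop :=
  |dpsi y - dpsi z| ≤ 3 * (z - y) ∧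
    psi z ≤ psi y + (z - y) * dpsi y + 3 * (z - y) ^ 2 ∧
    psi y ≤ psi z + (y - z) * dpsi z + 3 * (z - y) ^ 2

theorem BB_chain {y m z : ℝ} (h1 : y ≤ m) (h2 : m ≤ z) (a : BB y m) (b : BB m z) : BB y z := by
  obtain ⟨a1, a2, a3⟩ := a
  obtain ⟨b1, b2, b3⟩ := b
  have a1' := abs_le.1 a1
  have b1' := abs_le.1 b1
  refine ⟨?_, ?_, ?_⟩
  · rw [abs_le]; constructor <;> linarith [a1'.1, a1'.2, b1'.1, b1'.2]
  · have : (z - m) * (dpsi m - dpsi y) ≤ (z - m) * (3 * (m - y)) :=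
      mul_le_mul_of_nonneg_left (by linarith [a1'.1]) (by linarith)
    nlinarith [mul_nonneg (sub_nonneg.2 h1) (sub_nonneg.2 h2)]
  · have : (m - y) * (dpsi z - dpsi m) ≥ (m - y) * (-(3 * (z - m))) :=
      mul_le_mul_of_nonneg_left (by linarith [b1'.2]) (by linarith)
    nlinarith [mul_nonneg (sub_nonneg.2 h1) (sub_nonneg.2 h2)]

theorem BB_L {y z : ℝ} (h : y ≤ z) (hz : z ≤ 7 / 8) : BB y z := by
  unfold BB
  rw [psi_L hz, psi_L (h.trans hz), dpsi_L hz, dpsi_L (h.trans hz)]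
  refine ⟨?_, ?_, ?_⟩
  · rw [sub_self, abs_zero]; linarith
  · nlinarith [sq_nonneg (z - y)]
  · nlinarith [sq_nonneg (z - y)]

theorem BB_M {y z : ℝ} (hy : 7 / 8 ≤ y) (h : y ≤ z) (hz : z ≤ 1) : BB y z := by
  unfold BB
  rw [psi_M hy (h.trans hz), psi_M (hy.trans h) hz, dpsi_M hy (h.trans hz),
    dpsi_M (hy.trans h) hz]
  obtain ⟨v, hv⟩ : ∃ v, v = 1 - y := ⟨_, rfl⟩
  obtain ⟨w, hw⟩ : ∃ w, w = 1 - z := ⟨_, rfl⟩
  have ezy : z - y = v - w := by rw [hv, hw]; ring
  have eyz : y - z = w - v := by rw [hv, hw]; ring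
  rw [← hv, ← hw, ezy, eyz]
  have hw0 : 0 ≤ w := by linarith
  have hwv : 0 ≤ v - w := by linarith
  have hv8 : v ≤ 1 / 8 := by linarith
  have hv0 : 0 ≤ v := by linarith
  have hvv : v ^ 2 ≤ 1 / 64 := by nlinarith
  have hww : w ^ 2 ≤ 1 / 64 := by nlinarith
  have hvw : v * w ≤ 1 / 64 := by nlinarith
  have hvw0 : 0 ≤ v * w := mul_nonneg hv0 hw0
  refine ⟨?_, ?_, ?_⟩
  · have e : -(2 * v + 3 * v ^ 2 - 48 * v ^ 3) - -(2 * w + 3 * w ^ 2 - 48 * w ^ 3) =
        -((v - w) * (2 + 3 * (v + w) - 48 * (v ^ 2 + v * w + w ^ 2))) := by ring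
    rw [e, abs_neg, abs_mul, abs_of_nonneg hwv, mul_comm]
    apply mul_le_mul_of_nonneg_right _ hwv
    rw [abs_le]; constructor <;> nlinarith [sq_nonneg v, sq_nonneg w]
  · have e : v ^ 2 + v ^ 3 - 12 * v ^ 4 + (v - w) * -(2 * v + 3 * v ^ 2 - 48 * v ^ 3) +
        3 * (v - w) ^ 2 - (w ^ 2 + w ^ 3 - 12 * w ^ 4) =
        (v - w) ^ 2 * (3 - (1 + (w + 2 * v) - 12 * (w ^ 2 + 2 * (v * w) + 3 * v ^ 2))) := by ring
    have : 0 ≤ (v - w) ^ 2 * (3 - (1 + (w + 2 * v) - 12 * (w ^ 2 + 2 * (v * w) + 3 * v ^ 2))) := by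
      apply mul_nonneg (sq_nonneg _)
      nlinarith [sq_nonneg v, sq_nonneg w]
    linarith
  · have e : w ^ 2 + w ^ 3 - 12 * w ^ 4 + (w - v) * -(2 * w + 3 * w ^ 2 - 48 * w ^ 3) +
        3 * (v - w) ^ 2 - (v ^ 2 + v ^ 3 - 12 * v ^ 4) =
        (v - w) ^ 2 * (3 - (1 + (v + 2 * w) - 12 * (v ^ 2 + 2 * (v * w) + 3 * w ^ 2))) := by ring
    have : 0 ≤ (v - w) ^ 2 * (3 - (1 + (v + 2 * w) - 12 * (v ^ 2 + 2 * (v * w) + 3 * w ^ 2))) := by
      apply mul_nonneg (sq_nonneg _)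
      nlinarith [sq_nonneg v, sq_nonneg w]
    linarith

/-- Taylor bound on the right piece, both directions -/
theorem T_R {y z : ℝ} (hy : 1 ≤ y) (hz : 1 ≤ z) :
    psi z ≤ psi y + (z - y) * dpsi y + 3 * (z - y) ^ 2 := by
  rw [psi_R hy, psi_R hz, dpsi_R hy]
  have e : (z - 1) ^ 2 / z - (y - 1) ^ 2 / y - (z - y) * (1 - 1 / y ^ 2) =
      (z - y) ^ 2 * (1 / (z * y ^ 2)) := by
    have : z ≠ 0 := by positivity
    have : y ≠ 0 := by positivity
    field_simp
    ring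
  have h1 : (z - y) ^ 2 * (1 / (z * y ^ 2)) ≤ (z - y) ^ 2 := by
    have : 1 / (z * y ^ 2) ≤ 1 := by
      rw [div_le_one (by positivity)]
      have : 1 ≤ y ^ 2 := one_le_pow₀ hy
      nlinarith
    nlinarith [sq_nonneg (z - y)]
  have h2 : (max (z - 5) 0) ^ 2 ≤ (max (y - 5) 0 + (z - y)) ^ 2 := by
    rcases le_total (z - 5) 0 with h | h
    · rw [max_eq_right h]; nlinarith [sq_nonneg (max (y - 5) 0 + (z - y))]
    · rw [max_eq_left h]
      apply pow_le_pow_left₀ h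
      have := le_max_left (y - 5) 0
      linarith
  nlinarith

theorem BB_R {y z : ℝ} (hy : 1 ≤ y) (h : y ≤ z) : BB y z := by
  refine ⟨?_, T_R hy (hy.trans h), ?_⟩
  · have hz := hy.trans h
    rw [dpsi_R hy, dpsi_R hz]
    have h1 : 1 / y ^ 2 - 1 / z ^ 2 ≤ 2 * (z - y) := by
      have e : 1 / y ^ 2 - 1 / z ^ 2 = (z - y) * ((z + y) / (y ^ 2 * z ^ 2)) := by
        have : z ≠ 0 := by positivity
        have : y ≠ 0 := by positivity
        field_simp
        ring
      have : (z + y) / (y ^ 2 * z ^ 2) ≤ 2 := by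
        rw [div_le_iff₀ (by positivity)]
        have h1 : 1 ≤ y ^ 2 := one_le_pow₀ hy
        have h2 : z ≤ z ^ 2 := by nlinarith
        have h3 : z ^ 2 ≤ y ^ 2 * z ^ 2 := by nlinarith [sq_nonneg z]
        nlinarith
      rw [e]
      nlinarith
    have h2 : 1 / z ^ 2 ≤ 1 / y ^ 2 :=
      one_div_le_one_div_of_le (by positivity) (pow_le_pow_left₀ (by linarith) h 2)
    have h3 : max (y - 5) 0 ≤ max (z - 5) 0 := max_le_max (by linarith) le_rfl
    have h4 : max (z - 5) 0 ≤ max (y - 5) 0 + (z - y) := by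
      apply max_le
      · have := le_max_left (y - 5) 0; linarith
      · have := le_max_right (y - 5) 0; linarith
    rw [abs_le]; constructor <;> linarith
  · have := T_R (hy.trans h) hy
    have e : (y - z) ^ 2 = (z - y) ^ 2 := by ring
    rw [e] at this
    exact this

theorem BB_all {y z : ℝ} (h : y ≤ z) : BB y z := by
  rcases le_total z (7 / 8) with h1 | h1
  · exact BB_L h h1
  · rcases le_total z 1 with h2 | h2
    · rcases le_total y (7 / 8) with h3 | h3
      · exact BB_chain h3 h1 (BB_L h3 le_rfl) (BB_M le_rfl h1 h2)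
      · exact BB_M h3 h h2
    · rcases le_total y (7 / 8) with h3 | h3
      · exact BB_chain h3 h1 (BB_L h3 le_rfl)
          (BB_chain (by norm_num) h2 (BB_M le_rfl (by norm_num) le_rfl) (BB_R le_rfl h2))
      · rcases le_total y 1 with h4 | h4
        · exact BB_chain h4 h2 (BB_M h3 h4 le_rfl) (BB_R le_rfl h2)
        · exact BB_R h4 h

theorem taylor (y z : ℝ) : psi z ≤ psi y + (z - y) * dpsi y + 3 * (z - y) ^ 2 := by
  rcases le_total y z with h | h
  · exact (BB_all h).2.1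
  · have := (BB_all h).2.2
    have e : (y - z) ^ 2 = (z - y) ^ 2 := by ring
    rw [e] at this
    exact this

theorem lip (y z : ℝ) : |dpsi y - dpsi z| ≤ 3 * |y - z| := by
  rcases le_total y z with h | h
  · have := (BB_all h).1
    rw [abs_of_nonpos (show y - z ≤ 0 by linarith)]
    linarith
  · have := (BB_all h).1
    rw [abs_of_nonneg (show 0 ≤ y - z by linarith), abs_sub_comm]
    linarith

theorem psi_one : psi 1 = 0 := by
  rw [psi_R le_rfl, max_eq_right (by norm_num)]; norm_num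

theorem dpsi_one : dpsi 1 = 0 := by
  rw [dpsi_R le_rfl, max_eq_right (by norm_num)]; norm_num

theorem lower (y : ℝ) (hy : 0 ≤ y) : 1 / 16 * (y - 1) ^ 2 ≤ psi y := by
  rcases le_total y (7 / 8) with h1 | h1
  · rw [psi_L h1]; nlinarith
  · rcases le_total y 1 with h2 | h2
    · rw [psi_M h1 h2]
      obtain ⟨v, hv⟩ : ∃ v, v = 1 - y := ⟨_, rfl⟩
      have e : (y - 1) ^ 2 = v ^ 2 := by rw [hv]; ring
      rw [e, ← hv]
      have hv0 : 0 ≤ v := by linarith
      have hv8 : v ≤ 1 / 8 := by linarith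
      have e2 : v ^ 2 + v ^ 3 - 12 * v ^ 4 - 1 / 16 * v ^ 2 =
          v ^ 2 * (15 / 16 + v - 12 * v ^ 2) := by ring
      have : 0 ≤ v ^ 2 * (15 / 16 + v - 12 * v ^ 2) := by
        apply mul_nonneg (sq_nonneg _); nlinarith
      linarith
    · rw [psi_R h2]
      have hm : 0 ≤ (max (y - 5) 0) ^ 2 / 4 := by positivity
      rcases le_total y 9 with h3 | h3
      · have : 1 / 16 * (y - 1) ^ 2 ≤ (y - 1) ^ 2 / y := by
          rw [le_div_iff₀ (by linarith)]
          nlinarith [sq_nonneg (y - 1)]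
        linarith
      · have h4 : 0 ≤ (y - 1) ^ 2 / y := by positivity
        have h5 : (y - 1) / 2 ≤ max (y - 5) 0 := le_trans (by linarith) (le_max_left _ _)
        have h6 : ((y - 1) / 2) ^ 2 ≤ (max (y - 5) 0) ^ 2 :=
          pow_le_pow_left₀ (by linarith) h5 2
        nlinarith

/-- value of `h` at `a` -/
def hv (a : ℝ) : ℝ := psi a + psi a / a - (a - 1) * dpsi a

theorem right (a : ℝ) (ha : 1 ≤ a) : Rt (a - 1) (dpsi a) (hv a) := by
  refine ⟨by linarith, max (a - 5) 0, le_max_right _ _, ?_, ?_, ?_⟩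
  · rw [dpsi_R ha]; unfold PP
    have : 1 + (a - 1) = a := by ring
    rw [this]
  · unfold hv
    rw [dpsi_R ha, psi_R ha]
    obtain ⟨t, ht⟩ : ∃ t, t = max (a - 5) 0 := ⟨_, rfl⟩
    rw [← ht]
    have ht0 : 0 ≤ t := by rw [ht]; exact le_max_right _ _
    have hcase : t = 0 ∨ a - 1 = t + 4 := by
      rcases le_total (a - 5) 0 with h | h
      · left; rw [ht, max_eq_right h]
      · right; rw [ht, max_eq_left h]; ring
    have e : (a - 1) ^ 2 / a + t ^ 2 / 4 + ((a - 1) ^ 2 / a + t ^ 2 / 4) / a -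
        (a - 1) * (1 - 1 / a ^ 2 + t / 2) = t ^ 2 / 4 + t ^ 2 / 4 / a - (a - 1) * (t / 2) := by
      have : a ≠ 0 := by positivity
      field_simp
      ring
    rw [e]
    have h1 : 0 ≤ t ^ 2 / 4 / a := by positivity
    rcases hcase with h | h
    · rw [h]; norm_num
    · rw [h]; rw [h] at *
      nlinarith
  · rcases le_total (a - 5) 0 with h | h
    · left; rw [max_eq_right h]
    · right; rw [max_eq_left h]; ring

theorem left (a : ℝ) (ha : 0 < a) (ha1 : a < 1) : Lf (1 - a) (-dpsi a) (hv a) := by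
  have key : (7 / 8 ≤ a → (-dpsi a = 2 * (1 - a) + 3 * (1 - a) ^ 2 - 48 * (1 - a) ^ 3 ∧
      24 * (1 - a) ^ 4 ≤ hv a) ∧ 0 ≤ -dpsi a ∧ -dpsi a ≤ 13 / 64) ∧
      (a ≤ 7 / 8 → (-dpsi a = 13 / 64 ∧ 3 / 4 * ((1 - a) - 1 / 10) ^ 2 ≤ hv a ∧
        3 / 512 ≤ hv a)) := by
    refine ⟨fun h => ?_, fun h => ?_⟩
    · rw [show hv a = psi a + psi a / a - (a - 1) * dpsi a from rfl,
        dpsi_M h ha1.le, psi_M h ha1.le]
      obtain ⟨v, hv⟩ : ∃ v, v = 1 - a := ⟨_, rfl⟩
      have ha' : a = 1 - v := by rw [hv]; ring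
      have hv0 : 0 ≤ v := by linarith
      have hv8 : v ≤ 1 / 8 := by linarith
      rw [← hv]
      refine ⟨⟨by ring, ?_⟩, ?_, ?_⟩
      · have hne : a ≠ 0 := ha.ne'
        have e : v ^ 2 + v ^ 3 - 12 * v ^ 4 + (v ^ 2 + v ^ 3 - 12 * v ^ 4) / a -
            (a - 1) * -(2 * v + 3 * v ^ 2 - 48 * v ^ 3) = v ^ 4 * (26 - 36 * v) / a := by
          rw [eq_div_iff hne]
          have : (v ^ 2 + v ^ 3 - 12 * v ^ 4 + (v ^ 2 + v ^ 3 - 12 * v ^ 4) / a -
            (a - 1) * -(2 * v + 3 * v ^ 2 - 48 * v ^ 3)) * a =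
            (v ^ 2 + v ^ 3 - 12 * v ^ 4) * a + (v ^ 2 + v ^ 3 - 12 * v ^ 4) -
            (a - 1) * -(2 * v + 3 * v ^ 2 - 48 * v ^ 3) * a := by
            field_simp
          rw [this, ha']
          ring
        rw [e, le_div_iff₀ ha, ha']
        have h4 : 0 ≤ v ^ 4 := by positivity
        nlinarith
      · have : 0 ≤ v * (2 + 3 * v - 48 * v ^ 2) := mul_nonneg hv0 (by nlinarith)
        linarith
      · have e : 13 / 64 - (2 * v + 3 * v ^ 2 - 48 * v ^ 3) =
            (1 / 8 - v) * (13 / 8 - 3 * v - 48 * v ^ 2) := by ring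
        have : 0 ≤ (1 / 8 - v) * (13 / 8 - 3 * v - 48 * v ^ 2) :=
          mul_nonneg (by linarith) (by nlinarith)
        linarith
    · rw [show hv a = psi a + psi a / a - (a - 1) * dpsi a from rfl, dpsi_L h, psi_L h]
      obtain ⟨v, hv⟩ : ∃ v, v = 1 - a := ⟨_, rfl⟩
      have ha' : a = 1 - v := by rw [hv]; ring
      have hv8 : 1 / 8 ≤ v := by linarith
      have hv1 : v < 1 := by linarith
      rw [← hv]
      have hne : a ≠ 0 := ha.ne'
      have e : 13 / 64 * v - 11 / 1024 + (13 / 64 * v - 11 / 1024) / a -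
          (a - 1) * -(13 / 64) = (219 * v - 22) / 1024 / a := by
        rw [eq_div_iff hne]
        have : (13 / 64 * v - 11 / 1024 + (13 / 64 * v - 11 / 1024) / a -
          (a - 1) * -(13 / 64)) * a = (13 / 64 * v - 11 / 1024) * a +
          (13 / 64 * v - 11 / 1024) - (a - 1) * -(13 / 64) * a := by
          field_simp
        rw [this, ha']
        ring
      rw [e]
      refine ⟨by ring, ?_, ?_⟩
      · rw [le_div_iff₀ ha, ha']
        nlinarith [mul_nonneg (show (0:ℝ) ≤ v - 1 / 8 by linarith) (sq_nonneg (v - 2 / 5)),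
          mul_nonneg (show (0:ℝ) ≤ v - 1 / 8 by linarith) (show (0:ℝ) ≤ 1 - v by linarith),
          sq_nonneg (v - 2 / 5), sq_nonneg (v - 1 / 2)]
      · rw [le_div_iff₀ ha, ha']
        linarith
  refine ⟨by linarith, by linarith, ?_, ?_, ?_, ?_, ?_⟩
  · rcases le_total (7 / 8) a with h | h
    · exact le_trans (by positivity) ((key.1 h).1.2)
    · exact le_trans (by norm_num) ((key.2 h).2.2)
  · rcases le_total (7 / 8) a with h | h
    · exact (key.1 h).2.1
    · rw [(key.2 h).1]; norm_num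
  · rcases le_total (7 / 8) a with h | h
    · exact (key.1 h).2.2
    · rw [(key.2 h).1]
  · intro h
    exact (key.1 (by linarith)).1
  · intro h
    exact key.2 (by linarith)

theorem tri (a b c : ℝ) (ha : 0 < a) (hb : 0 < b) (hc : 0 < c) :
    0 ≤ psi a + psi b + psi c + psi a / a + psi b / b + psi c / c +
      (b + c - 2) * dpsi a + (a + c - 2) * dpsi b + (a + b - 2) * dpsi c := by
  have e : psi a + psi b + psi c + psi a / a + psi b / b + psi c / c +
      (b + c - 2) * dpsi a + (a + c - 2) * dpsi b + (a + b - 2) * dpsi c =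
      hv a + hv b + hv c + ((a - 1) + (b - 1) + (c - 1)) * (dpsi a + dpsi b + dpsi c) := by
    unfold hv; ring
  rw [e]
  rcases le_or_gt 1 a with h1 | h1 <;> rcases le_or_gt 1 b with h2 | h2 <;>
    rcases le_or_gt 1 c with h3 | h3
  · exact RRR (right a h1) (right b h2) (right c h3)
  · have := RRL (right a h1) (right b h2) (left c hc h3); nlinarith
  · have := RRL (right a h1) (right c h3) (left b hb h2); nlinarith
  · have := RLL (right a h1) (left b hb h2) (left c hc h3); nlinarith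
  · have := RRL (right b h2) (right c h3) (left a ha h1); nlinarith
  · have := RLL (right b h2) (left a ha h1) (left c hc h3); nlinarith
  · have := RLL (right c h3) (left a ha h1) (left b hb h2); nlinarith
  · have := LLL (left a ha h1) (left b hb h2) (left c hc h3); nlinarith

end

end Vale.Agent.P046.Psi

namespace Vale.Agent.P046

/-- [PSI] the potential exists -/
theorem exists_pot : ∃ (ψ ψ' : ℝ → ℝ) (c K : ℝ), Pot ψ ψ' c K := by
  refine ⟨Psi.psi, Psi.dpsi, 1 / 16, 3, ?_⟩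
  exact
    { cpos := by norm_num
      Kpos := by norm_num
      lower := Psi.lower
      one := Psi.psi_one
      taylor := fun y z _ _ => Psi.taylor y z
      dbound := fun y _ => by
        have := Psi.lip y 1
        rw [Psi.dpsi_one, sub_zero] at this
        exact this
      lip := fun y z _ _ => by
        have := Psi.lip y z
        have h := abs_nonneg (y - z)
        linarith
      tri := Psi.tri }

end Vale.Agent.P046
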