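import Mathlib

/-!
P046: random triangle removal. General frame: a linear 3-uniform hypergraph with point type `α`
and block set `B`; the state of the process is the set `A` of points which are still alive
(for triangle removal: points = edges of the graph, blocks = triangles of `K_n`).
-/

namespace Vale.Agent.P046

open Finset

noncomputable section

variable {α : Type} [DecidableEq α]

/-- linear 3-uniform hypergraph -/
structure Lin3 (B : Finset (Finset α)) : Prop where
  card3 : ∀ T ∈ B, T.card = 3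
  lin : ∀ T ∈ B, ∀ T' ∈ B, T ≠ T' → (T ∩ T').card ≤ 1

/-- blocks which are alive in the state `A` -/
def bl (B : Finset (Finset α)) (A : Finset α) : Finset (Finset α) := B.filter (fun T => T ⊆ A)

/-- number of alive blocks at the point `e` -/
def dg (B : Finset (Finset α)) (A : Finset α) (e : α) : ℕ := ((bl B A).filter (fun T => e ∈ T)).card

/-- expected value of `Φ` in the final state of the random greedy process started at `A`
(`k` = number of steps that are carried out at most; `k = A.card` is enough) -/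
def run (B : Finset (Finset α)) (Φ : Finset α → ℝ) : ℕ → Finset α → ℝ
  | 0, A => Φ A
  | k + 1, A => if (bl B A).Nonempty then (∑ T ∈ bl B A, run B Φ k (A \ T)) / ((bl B A).card : ℝ)
      else Φ A

/-- one step of the lazy chain: a uniformly random block of `B` is removed if it is alive -/
def lz (B : Finset (Finset α)) (f : Finset α → ℝ) (A : Finset α) : ℝ :=
  f A + (∑ T ∈ bl B A, (f (A \ T) - f A)) / (B.card : ℝ)

/-- the potential -/
def Pt (B : Finset (Finset α)) (ψ : ℝ → ℝ) (ρ : ℝ) (A : Finset α) : ℝ :=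
  ∑ e ∈ A, ψ ((dg B A e : ℝ) / ρ)

/-- what is needed about the one-variable potential -/
structure Pot (ψ ψ' : ℝ → ℝ) (c K : ℝ) : Prop where
  cpos : 0 < c
  Kpos : 0 < K
  lower : ∀ y, 0 ≤ y → c * (y - 1) ^ 2 ≤ ψ y
  one : ψ 1 = 0
  taylor : ∀ y z, 0 ≤ y → 0 ≤ z → ψ z ≤ ψ y + (z - y) * ψ' y + K * (z - y) ^ 2
  dbound : ∀ y, 0 ≤ y → |ψ' y| ≤ K * |y - 1|
  lip : ∀ y z, 0 ≤ y → 0 ≤ z → |ψ' y - ψ' z| ≤ 2 * K * |y - z|
  tri : ∀ a b c, 0 < a → 0 < b → 0 < c →
    0 ≤ ψ a + ψ b + ψ c + ψ a / a + ψ b / b + ψ c / c +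
      (b + c - 2) * ψ' a + (a + c - 2) * ψ' b + (a + b - 2) * ψ' c

end

end Vale.Agent.P046
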