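import Vale.Agent.P046.Chain
import Vale.Agent.P046.Drift

/-!
P046: assembly of the main theorem from the rows STEP, REC and PSI (given as hypotheses here).
-/

namespace Vale.Agent.P046

open Finset

noncomputable section

theorem card_facts {α : Type} [DecidableEq α] (B : Finset (Finset α)) (hB : Lin3 B)
    (A : Finset α) (D : ℕ) (hBA : ∀ T ∈ B, T ⊆ A) (hdeg : ∀ e ∈ A, dg B A e = D) :
    bl B A = B ∧ 3 * (B.card : ℝ) = (A.card : ℝ) * D ∧ (A.Nonempty → 2 * D + 1 ≤ A.card) := by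
  have hbl : bl B A = B := Finset.filter_true_of_mem hBA
  refine ⟨hbl, ?_, ?_⟩
  · have h := Drift.sum_blocks B A (fun _ => (1 : ℝ))
    rw [hbl] at h
    have h1 : ∀ T ∈ B, ∑ _e ∈ T, (1 : ℝ) = 3 := by
      intro T hT
      rw [Finset.sum_const, hB.card3 T hT]
      norm_num
    rw [Finset.sum_congr rfl h1] at h
    have h2 : ∀ e ∈ A, (dg B A e : ℝ) * 1 = (D : ℝ) := by
      intro e he
      rw [hdeg e he, mul_one]
    rw [Finset.sum_congr rfl h2] at h
    simp only [Finset.sum_const, nsmul_eq_mul] at h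
    linarith
  · rintro ⟨e, he⟩
    have h1 : ((B.filter (fun T => e ∈ T)).biUnion (fun T => T.erase e)).card = 2 * D := by
      rw [Finset.card_biUnion]
      · have h2 : ∀ T ∈ B.filter (fun T => e ∈ T), (T.erase e).card = 2 := by
          intro T hT
          simp only [mem_filter] at hT
          rw [Finset.card_erase_of_mem hT.2, hB.card3 T hT.1]
        rw [Finset.sum_congr rfl h2, Finset.sum_const, smul_eq_mul]
        have h3 := hdeg e he
        unfold dg at h3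
        rw [hbl] at h3
        rw [h3, mul_comm]
      · intro T hT T' hT' hne
        simp only [Function.onFun]
        rw [Finset.disjoint_left]
        intro x hx hx'
        simp only [coe_filter, Set.mem_ofPred_eq] at hT hT'
        simp only [mem_erase] at hx hx'
        exact hne (Drift.eq_of_two hB hT.1 hT'.1 hx.1 hx.2 hT.2 hx'.2 hT'.2)
    have h4 : (B.filter (fun T => e ∈ T)).biUnion (fun T => T.erase e) ⊆ A.erase e := by
      intro x hx
      simp only [mem_biUnion, mem_filter, mem_erase] at hx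
      obtain ⟨T, ⟨hT, _⟩, hxe, hxT⟩ := hx
      exact mem_erase.2 ⟨hxe, hBA T hT hxT⟩
    have h5 := Finset.card_le_card h4
    rw [h1, Finset.card_erase_of_mem he] at h5
    have h6 : 1 ≤ A.card := Finset.card_pos.2 ⟨e, he⟩
    omega

theorem main_of
    (hstepP : ∀ (ψ ψ' : ℝ → ℝ) (c K : ℝ), Pot ψ ψ' c K →
      ∃ C : ℝ, 0 < C ∧ ∀ (α : Type) [DecidableEq α] (B : Finset (Finset α)), Lin3 B →
      ∀ (ρ ρ' : ℝ), 0 < ρ' → ρ' ≤ ρ → 0 < B.card → 1 / ρ' = 1 / ρ + 2 / (B.card : ℝ) →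
      ρ ^ 2 ≤ 3 * (B.card : ℝ) →
      ∀ A : Finset α, lz B (Pt B ψ ρ') A ≤
        (1 + (ρ + C) / (B.card : ℝ)) * Pt B ψ ρ A + C / (B.card : ℝ) * (A.card : ℝ))
    (hstepC : ∀ (ψ ψ' : ℝ → ℝ) (c K : ℝ), Pot ψ ψ' c K → ∀ (α : Type) [DecidableEq α]
      (B : Finset (Finset α)),
      Lin3 B → ∀ (ρ η : ℝ), 0 < ρ → 0 < η → 0 < B.card → ∀ (A : Finset α),
    lz B (fun A => (A.card : ℝ)) A ≤
      (1 - ρ / (B.card : ℝ) + η / (2 * (B.card : ℝ))) * (A.card : ℝ) +
        ρ ^ 2 / (2 * c * η * (B.card : ℝ)) * Pt B ψ ρ A)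
    (hrec : ∀ (c C : ℝ), 0 < c → 0 < C →
    ∃ C' : ℝ, 0 < C' ∧ ∀ (M N D : ℝ), 2 ≤ D → 2 * D + 1 ≤ N → 3 * M = N * D →
      ∃ k : ℕ, ∀ (ρ x u : ℕ → ℝ), (∀ i, ρ i = 1 / (1 / D + 2 * (i : ℝ) / M)) →
        x 0 = N → u 0 = 0 → (∀ i, 0 ≤ x i) → (∀ i, 0 ≤ u i) →
        (∀ i, ∀ η : ℝ, 0 < η → x (i + 1) ≤ (1 - ρ i / M + η / (2 * M)) * x i +
          ρ i ^ 2 / (2 * c * η * M) * u i) →
        (∀ i, u (i + 1) ≤ (1 + (ρ i + C) / M) * u i + C / M * x i) →
        x k ≤ C' * N * Real.sqrt (Real.log D / D))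
    (hpot : ∃ (ψ ψ' : ℝ → ℝ) (c K : ℝ), Pot ψ ψ' c K) :
    ∃ C : ℝ, 0 < C ∧ ∀ (α : Type) [DecidableEq α] (B : Finset (Finset α))
    (A : Finset α) (D : ℕ), 2 ≤ D → Lin3 B → (∀ T ∈ B, T ⊆ A) → (∀ e ∈ A, dg B A e = D) →
    run B (fun A => (A.card : ℝ)) A.card A ≤
      C * (A.card : ℝ) * Real.sqrt (Real.log D / D) := by
  obtain ⟨ψ, ψ', c, K, h⟩ := hpot
  obtain ⟨C, hC, hst⟩ := hstepP ψ ψ' c K h
  obtain ⟨C', hC', hr⟩ := hrec c C h.cpos hC
  refine ⟨C', hC', ?_⟩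
  intro α _ B A D hD hB hBA hdeg
  obtain ⟨hbl, h3, hN⟩ := card_facts B hB A D hBA hdeg
  rcases A.eq_empty_or_nonempty with rfl | hne
  · simp [run]
  have hN' := hN hne
  have hD2 : (2 : ℝ) ≤ D := by exact_mod_cast hD
  have hNr : 2 * (D : ℝ) + 1 ≤ (A.card : ℝ) := by exact_mod_cast hN'
  have hMpos : (0 : ℝ) < (B.card : ℝ) := by nlinarith
  have hM0 : 0 < B.card := by exact_mod_cast hMpos
  obtain ⟨k, hk⟩ := hr (B.card : ℝ) (A.card : ℝ) (D : ℝ) hD2 hNr h3
  set M : ℝ := (B.card : ℝ) with hM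
  set ρ : ℕ → ℝ := fun i => 1 / (1 / (D : ℝ) + 2 * (i : ℝ) / M) with hρ
  have hden : ∀ i : ℕ, 0 < 1 / (D : ℝ) + 2 * (i : ℝ) / M := fun i => by positivity
  have hρpos : ∀ i, 0 < ρ i := fun i => by
    simp only [hρ]; exact one_div_pos.2 (hden i)
  have hψ0 : ∀ x, 0 ≤ x → 0 ≤ ψ x := fun x hx =>
    le_trans (mul_nonneg h.cpos.le (sq_nonneg _)) (h.lower x hx)
  have hPt0 : ∀ (r : ℝ) (A' : Finset α), 0 < r → 0 ≤ Pt B ψ r A' := by
    intro r A' hr0
    exact Finset.sum_nonneg fun e _ => hψ0 _ (by positivity)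
  have hiter0 : ∀ (f : Finset α → ℝ) (i : ℕ), (∀ A', 0 ≤ f A') → 0 ≤ ((lz B)^[i]) f A := by
    intro f i hf
    have h1 := lz_iter_mono B (fun _ => (0 : ℝ)) f A (fun A' _ => hf A') i
    have h2 := lz_iter_lin B (fun _ => (0 : ℝ)) (fun _ => (0 : ℝ)) 0 0 A i
    simp only [mul_zero, add_zero, zero_mul] at h2
    linarith
  have hkk := hk ρ (fun i => ((lz B)^[i]) (fun A' => (A'.card : ℝ)) A)
    (fun i => ((lz B)^[i]) (Pt B ψ (ρ i)) A) (fun i => rfl) (by simp) ?_ ?_ ?_ ?_ ?_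
  · refine le_trans ?_ hkk
    refine run_le_lz B hB (fun A' => (A'.card : ℝ)) ?_ k A
    intro A' T _
    exact_mod_cast Finset.card_le_card Finset.sdiff_subset
  · have hρ0 : ρ 0 = D := by
      simp only [hρ]; simp
    simp only [Function.iterate_zero, id_eq]
    unfold Pt
    refine Finset.sum_eq_zero fun e he => ?_
    rw [hdeg e he, hρ0, div_self (by positivity), h.one]
  · intro i
    exact hiter0 _ i fun A' => by positivity
  · intro i
    exact hiter0 _ i fun A' => hPt0 _ A' (hρpos i)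
  · intro i η hη
    have h1 := lz_iter_mono B (lz B (fun A' => (A'.card : ℝ)))
      (fun A' => (1 - ρ i / M + η / (2 * M)) * (A'.card : ℝ) +
        ρ i ^ 2 / (2 * c * η * M) * Pt B ψ (ρ i) A') A
      (fun A' _ => hstepC ψ ψ' c K h α B hB (ρ i) η (hρpos i) hη hM0 A') i
    rw [lz_iter_lin] at h1
    simp only [Function.iterate_succ_apply]
    exact h1
  · intro i
    have e1 : 1 / ρ (i + 1) = 1 / ρ i + 2 / M := by
      simp only [hρ, one_div_one_div]
      push_cast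
      field_simp
      ring
    have e2 : ρ (i + 1) ≤ ρ i := by
      have h5 : 1 / ρ i ≤ 1 / ρ (i + 1) := by
        rw [e1]
        have : 0 < 2 / M := by positivity
        linarith
      exact (one_div_le_one_div (hρpos i) (hρpos (i + 1))).1 h5
    have e3 : ρ i ≤ D := by
      simp only [hρ]
      rw [div_le_iff₀ (hden i)]
      have h6 : 0 ≤ 2 * (i : ℝ) / M := by positivity
      have h7 : (D : ℝ) * (1 / D) = 1 := by field_simp
      nlinarith
    have e4 : ρ i ^ 2 ≤ 3 * M := by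
      have := hρpos i
      rw [h3]
      nlinarith
    have h1 := lz_iter_mono B (lz B (Pt B ψ (ρ (i + 1))))
      (fun A' => (1 + (ρ i + C) / M) * Pt B ψ (ρ i) A' + C / M * (A'.card : ℝ)) A
      (fun A' _ => hst α B hB (ρ i) (ρ (i + 1)) (hρpos (i + 1)) e2 hM0 e1 e4 A') i
    rw [lz_iter_lin] at h1
    simp only [Function.iterate_succ_apply]
    exact h1

end

end Vale.Agent.P046
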