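import Mathlib

/-!
P046: the pure real-number recursion (row REC).
-/

namespace Vale.Agent.P046

noncomputable section

namespace Rec

theorem stepX {c h b ε p p' X U X' : ℝ} (hc : 0 < c) (hh : 0 < h) (hb : 0 < b)
    (hp : 0 < p) (hp' : 0 < p') (hpp : p' ^ 2 = p ^ 2 + 2 * h) (h1 : h ≤ 3 / 5 * p ^ 2)
    (hX : X * p ≤ 1 + ε) (hε0 : 0 ≤ ε) (hε1 : ε ≤ 1) (hU : U ≤ b * p)
    (hrec : ∀ η : ℝ, 0 < η →
      X' ≤ (1 - h / p ^ 2 + h * η / 2) * X + h / p ^ 4 / (2 * c * η) * U) :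
    X' * p' ≤ 1 + ε + 3 / 2 * Real.sqrt b * (1 + 1 / (2 * c)) * (5 / 4 * (p' - p)) := by
  have hs : 0 < Real.sqrt b := Real.sqrt_pos.2 hb
  have hsb : Real.sqrt b * Real.sqrt b = b := Real.mul_self_sqrt hb.le
  set s := Real.sqrt b with hsdef
  have hlt : p < p' := by nlinarith
  have hp32 : p' ≤ 3 / 2 * p := by nlinarith
  have hXp : X ≤ (1 + ε) / p := by rw [le_div_iff₀ hp]; exact hX
  have hX2 : X ≤ 2 / p := hXp.trans (by gcongr; linarith)
  have hr := hrec (s / p) (by positivity)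
  have e1 : h * (s / p) / 2 * X ≤ h * s / p ^ 2 := by
    calc h * (s / p) / 2 * X ≤ h * (s / p) / 2 * (2 / p) := by gcongr
      _ = h * s / p ^ 2 := by field_simp
  have e2 : h / p ^ 4 / (2 * c * (s / p)) * U ≤ h * s / p ^ 2 * (1 / (2 * c)) := by
    calc h / p ^ 4 / (2 * c * (s / p)) * U ≤ h / p ^ 4 / (2 * c * (s / p)) * (b * p) := by gcongr
      _ = h / p ^ 4 / (2 * c * (s / p)) * ((s * s) * p) := by rw [hsb]
      _ = h * s / p ^ 2 * (1 / (2 * c)) := by field_simp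
  have ha : h / p ^ 2 ≤ 3 / 5 := by rw [div_le_iff₀ (by positivity)]; exact h1
  have e3 : (1 - h / p ^ 2) * X ≤ (1 - h / p ^ 2) * ((1 + ε) / p) := by
    apply mul_le_mul_of_nonneg_left hXp; linarith
  -- (1 - a) p' ≤ p
  have e4 : (1 - h / p ^ 2) * p' ≤ p := by
    have hpos : 0 ≤ (1 - h / p ^ 2) * p' := by
      apply mul_nonneg _ hp'.le; linarith
    have hsq : ((1 - h / p ^ 2) * p') ^ 2 ≤ p ^ 2 := by
      rw [mul_pow, hpp]
      have hpe : p ^ 2 + 2 * h = p ^ 2 * (1 + 2 * (h / p ^ 2)) := by field_simp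
      rw [hpe]
      have h0 : 0 ≤ h / p ^ 2 := by positivity
      have : (1 - h / p ^ 2) ^ 2 * (1 + 2 * (h / p ^ 2)) ≤ 1 := by nlinarith [sq_nonneg (h / p ^ 2)]
      nlinarith [sq_nonneg p]
    exact abs_le_of_sq_le_sq' hsq hp.le |>.2
  have e5 : X' ≤ (1 - h / p ^ 2) * ((1 + ε) / p) + h * s / p ^ 2 * (1 + 1 / (2 * c)) := by
    have : (1 - h / p ^ 2 + h * (s / p) / 2) * X = (1 - h / p ^ 2) * X + h * (s / p) / 2 * X := by
      ring
    rw [this] at hr
    have h7 : h * s / p ^ 2 * (1 + 1 / (2 * c)) = h * s / p ^ 2 + h * s / p ^ 2 * (1 / (2 * c)) := by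
      ring
    rw [h7]
    linarith
  have e6 : X' * p' ≤ ((1 - h / p ^ 2) * ((1 + ε) / p) + h * s / p ^ 2 * (1 + 1 / (2 * c))) * p' :=
    mul_le_mul_of_nonneg_right e5 hp'.le
  have e7 : (1 - h / p ^ 2) * ((1 + ε) / p) * p' ≤ 1 + ε := by
    have : (1 - h / p ^ 2) * ((1 + ε) / p) * p' = ((1 - h / p ^ 2) * p') * ((1 + ε) / p) := by ring
    rw [this]
    calc ((1 - h / p ^ 2) * p') * ((1 + ε) / p) ≤ p * ((1 + ε) / p) := by gcongr
      _ = 1 + ε := by field_simp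
  have e8 : h / p ≤ 5 / 4 * (p' - p) := by
    have h9 : (p' - p) * (p' + p) = 2 * h := by nlinarith
    rw [div_le_iff₀ hp]
    nlinarith
  have e9 : h * s / p ^ 2 * (1 + 1 / (2 * c)) * p' ≤
      3 / 2 * s * (1 + 1 / (2 * c)) * (5 / 4 * (p' - p)) := by
    calc h * s / p ^ 2 * (1 + 1 / (2 * c)) * p' ≤
        h * s / p ^ 2 * (1 + 1 / (2 * c)) * (3 / 2 * p) := by gcongr
      _ = 3 / 2 * s * (1 + 1 / (2 * c)) * (h / p) := by field_simp
      _ ≤ _ := by gcongr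
  have e10 : ((1 - h / p ^ 2) * ((1 + ε) / p) + h * s / p ^ 2 * (1 + 1 / (2 * c))) * p' =
    (1 - h / p ^ 2) * ((1 + ε) / p) * p' + h * s / p ^ 2 * (1 + 1 / (2 * c)) * p' := by ring
  rw [e10] at e6
  linarith

theorem stepU {C h β p p' X U U' : ℝ} (hC : 0 < C) (hh : 0 < h)
    (hp : 0 < p) (hp' : 0 < p') (hpp : p' ^ 2 = p ^ 2 + 2 * h)
    (h2 : h ≤ 3 / 2 * p ^ 4) (hβ : 0 ≤ β)
    (hX : X ≤ 2 / p) (hU : U ≤ β * p)
    (hrec : U' ≤ (1 + (h / p ^ 2 + h * C)) * U + h * C * X) :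
    U' ≤ (Real.exp ((C + 2) * h) * β + 2 * C * (h / p ^ 2)) * p' := by
  have hlt : p < p' := by nlinarith
  set a := h / p ^ 2 with ha
  have ha0 : 0 < a := by positivity
  have ha2 : a ^ 2 ≤ 3 / 2 * h := by
    rw [ha, div_pow, div_le_iff₀ (by positivity)]
    nlinarith
  have e1 : (1 + a) * p ≤ (1 + a ^ 2) * p' := by
    have hsq : ((1 + a) * p) ^ 2 ≤ ((1 + a ^ 2) * p') ^ 2 := by
      rw [mul_pow, mul_pow, hpp]
      have hpe : p ^ 2 + 2 * h = p ^ 2 * (1 + 2 * a) := by rw [ha]; field_simp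
      rw [hpe]
      have : (1 + a) ^ 2 ≤ (1 + a ^ 2) ^ 2 * (1 + 2 * a) := by
        nlinarith [sq_nonneg a, mul_pos ha0 ha0, mul_pos (mul_pos ha0 ha0) ha0,
          mul_pos (mul_pos (mul_pos ha0 ha0) ha0) ha0,
          mul_pos (mul_pos (mul_pos (mul_pos ha0 ha0) ha0) ha0) ha0]
      nlinarith [sq_nonneg p]
    exact abs_le_of_sq_le_sq' hsq (by positivity) |>.2
  have e2 : (1 + h * C) * (1 + a ^ 2) ≤ Real.exp ((C + 2) * h) := by
    have h3 : 1 + h * C ≤ Real.exp (h * C) := by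
      have := Real.add_one_le_exp (h * C); linarith
    have h4 : 1 + a ^ 2 ≤ Real.exp (2 * h) := by
      have := Real.add_one_le_exp (2 * h); linarith
    calc (1 + h * C) * (1 + a ^ 2) ≤ Real.exp (h * C) * Real.exp (2 * h) := by gcongr
      _ = Real.exp ((C + 2) * h) := by rw [← Real.exp_add]; congr 1; ring
  have e3 : (1 + (a + h * C)) * U ≤ Real.exp ((C + 2) * h) * β * p' := by
    calc (1 + (a + h * C)) * U ≤ (1 + (a + h * C)) * (β * p) := by gcongr
      _ ≤ ((1 + h * C) * (1 + a)) * (β * p) := by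
          gcongr
          nlinarith [mul_pos (mul_pos hh hC) ha0]
      _ = (1 + h * C) * β * ((1 + a) * p) := by ring
      _ ≤ (1 + h * C) * β * ((1 + a ^ 2) * p') := by gcongr
      _ = (1 + h * C) * (1 + a ^ 2) * (β * p') := by ring
      _ ≤ Real.exp ((C + 2) * h) * (β * p') := by gcongr
      _ = _ := by ring
  have e4 : h * C * X ≤ 2 * C * a * p' := by
    calc h * C * X ≤ h * C * (2 / p) := by gcongr
      _ = 2 * C * a * p := by rw [ha]; field_simp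
      _ ≤ 2 * C * a * p' := by gcongr
  calc U' ≤ _ := hrec
    _ ≤ Real.exp ((C + 2) * h) * β * p' + 2 * C * a * p' := by linarith
    _ = _ := by ring

theorem log_step {a : ℝ} (ha : 0 ≤ a) (ha1 : a ≤ 1) : a ≤ Real.log (1 + 2 * a) := by
  have h := Real.le_log_one_add_of_nonneg (x := 2 * a) (by linarith)
  refine le_trans ?_ h
  rw [le_div_iff₀ (by linarith)]
  nlinarith


theorem core {c C h b ℓ : ℝ} (k : ℕ) (hc : 0 < c) (hC : 0 < C) (hh : 0 < h) (hb : 0 < b)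
    (hbℓ : Real.exp (C + 2) * (2 * C) * ℓ ≤ b)
    (p X U : ℕ → ℝ) (hp : ∀ i, 0 < p i) (hstep : ∀ i, p (i + 1) ^ 2 = p i ^ 2 + 2 * h)
    (h1 : ∀ i, h ≤ 3 / 5 * p i ^ 2) (h2 : ∀ i, h ≤ 3 / 2 * p i ^ 4)
    (hmono : ∀ i, p 0 ≤ p i)
    (hih : ∀ i, i ≤ k → (i : ℝ) * h ≤ 1)
    (hΛle : ∀ i, i ≤ k → 2 * Real.log (p i) - 2 * Real.log (p 0) ≤ ℓ)
    (hep : ∀ i, i ≤ k → 3 / 2 * (1 + 1 / (2 * c)) * (5 / 4) * Real.sqrt b * (p i - p 0) ≤ 1)
    (hX0 : X 0 * p 0 ≤ 1) (hU0 : U 0 ≤ 0)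
    (hrx : ∀ i, ∀ η : ℝ, 0 < η → X (i + 1) ≤ (1 - h / p i ^ 2 + h * η / 2) * X i +
      h / p i ^ 4 / (2 * c * η) * U i)
    (hru : ∀ i, U (i + 1) ≤ (1 + (h / p i ^ 2 + h * C)) * U i + h * C * X i) :
    ∀ i, i ≤ k → X i * p i ≤ 1 + 3 / 2 * (1 + 1 / (2 * c)) * (5 / 4) * Real.sqrt b *
      (p i - p 0) ∧
      U i ≤ Real.exp ((C + 2) * (i * h)) * (2 * C) *
        (2 * Real.log (p i) - 2 * Real.log (p 0)) * p i := by
  intro i
  induction i with
  | zero =>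
    intro _
    constructor
    · simpa using hX0
    · simpa using hU0
  | succ i ih =>
    intro hi
    obtain ⟨ihX, ihU⟩ := ih (by omega)
    have hi' : i ≤ k := by omega
    have hpi := hp i
    have hpi1 := hp (i + 1)
    have hΛ0 : 0 ≤ 2 * Real.log (p i) - 2 * Real.log (p 0) := by
      have := Real.log_le_log (hp 0) (hmono i)
      linarith
    have h20 := hΛle i hi'
    have hβle : Real.exp ((C + 2) * (i * h)) * (2 * C) *
        (2 * Real.log (p i) - 2 * Real.log (p 0)) ≤ b := by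
      have h19 : Real.exp ((C + 2) * (i * h)) ≤ Real.exp (C + 2) := by
        apply Real.exp_le_exp.2
        have := hih i hi'
        nlinarith
      calc Real.exp ((C + 2) * (i * h)) * (2 * C) *
          (2 * Real.log (p i) - 2 * Real.log (p 0)) ≤
          Real.exp (C + 2) * (2 * C) * ℓ := by gcongr
        _ ≤ b := hbℓ
    have hβ0 : 0 ≤ Real.exp ((C + 2) * (i * h)) * (2 * C) *
        (2 * Real.log (p i) - 2 * Real.log (p 0)) := by positivity
    have hε0 : 0 ≤ 3 / 2 * (1 + 1 / (2 * c)) * (5 / 4) * Real.sqrt b * (p i - p 0) := by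
      have := hmono i
      exact mul_nonneg (by positivity) (by linarith)
    constructor
    · have h24 := stepX hc hh hb hpi hpi1 (hstep i) (h1 i) ihX hε0 (hep i hi')
        (ihU.trans (mul_le_mul_of_nonneg_right hβle hpi.le)) (hrx i)
      calc _ ≤ _ := h24
        _ = _ := by ring
    · have hX2 : X i ≤ 2 / p i := by
        rw [le_div_iff₀ hpi]
        have := hep i hi'
        linarith
      have h24 := stepU hC hh hpi hpi1 (hstep i) (h2 i) hβ0 hX2 ihU (hru i)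
      have ha0 : 0 ≤ h / p i ^ 2 := by positivity
      have ha1 : h / p i ^ 2 ≤ 1 := by
        have h26 := h1 i
        rw [div_le_one (by positivity)]
        nlinarith [sq_nonneg (p i)]
      have h27 : h / p i ^ 2 ≤ (2 * Real.log (p (i + 1)) - 2 * Real.log (p 0)) -
          (2 * Real.log (p i) - 2 * Real.log (p 0)) := by
        have h28 : (2 * Real.log (p (i + 1)) - 2 * Real.log (p 0)) -
            (2 * Real.log (p i) - 2 * Real.log (p 0)) = Real.log (1 + 2 * (h / p i ^ 2)) := by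
          have h29 : 1 + 2 * (h / p i ^ 2) = p (i + 1) ^ 2 / p i ^ 2 := by
            rw [hstep i]
            field_simp
          rw [h29, Real.log_div (by positivity) (by positivity), Real.log_pow, Real.log_pow]
          push_cast
          ring
        rw [h28]
        exact log_step ha0 ha1
      have h31 : Real.exp ((C + 2) * ((i + 1 : ℕ) * h)) =
          Real.exp ((C + 2) * h) * Real.exp ((C + 2) * (i * h)) := by
        rw [← Real.exp_add]; congr 1; push_cast; ring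
      have h32 : 1 ≤ Real.exp ((C + 2) * ((i + 1 : ℕ) * h)) := by
        apply Real.one_le_exp
        positivity
      refine h24.trans (mul_le_mul_of_nonneg_right ?_ hpi1.le)
      have h33 : 2 * C * (h / p i ^ 2) ≤
          Real.exp ((C + 2) * ((i + 1 : ℕ) * h)) * (2 * C * (h / p i ^ 2)) :=
        le_mul_of_one_le_left (by positivity) h32
      have h34 : Real.exp ((C + 2) * ((i + 1 : ℕ) * h)) * (2 * C) *
          (2 * Real.log (p (i + 1)) - 2 * Real.log (p 0)) ≥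
          Real.exp ((C + 2) * ((i + 1 : ℕ) * h)) * (2 * C) *
          ((2 * Real.log (p i) - 2 * Real.log (p 0)) + h / p i ^ 2) := by
        apply mul_le_mul_of_nonneg_left _ (by positivity)
        linarith
      have h35 : Real.exp ((C + 2) * h) * (Real.exp ((C + 2) * (i * h)) * (2 * C) *
          (2 * Real.log (p i) - 2 * Real.log (p 0))) =
          Real.exp ((C + 2) * ((i + 1 : ℕ) * h)) * (2 * C) *
          (2 * Real.log (p i) - 2 * Real.log (p 0)) := by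
        rw [h31]; ring
      rw [h35]
      linarith

theorem sqrt_sub_le {a b : ℝ} (ha : 0 ≤ a) (hb : 0 ≤ b) :
    Real.sqrt (a + b) - Real.sqrt a ≤ Real.sqrt b := by
  have h1 := Real.sqrt_nonneg a
  have h2 := Real.sqrt_nonneg b
  have h3 : Real.sqrt (a + b) ≤ Real.sqrt a + Real.sqrt b := by
    rw [Real.sqrt_le_left (by positivity)]
    nlinarith [Real.sq_sqrt ha, Real.sq_sqrt hb, mul_nonneg h1 h2]
  linarith

/-- final arithmetic -/
theorem fin {C2 D M N ℓ x pk : ℝ} {k : ℕ} (hC2 : 4 ≤ C2) (hD : 2 ≤ D) (hN : 2 * D + 1 ≤ N)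
    (h3 : 3 * M = N * D) (hℓ : ℓ = 1 + Real.log D) (hk : k = ⌊M / (C2 * ℓ)⌋₊) (hpk : 0 < pk)
    (hpk2 : pk ^ 2 = 1 / D + 2 * (k : ℝ) * (1 / M)) (hx : x * pk ≤ 2 * (N * Real.sqrt (1 / D))) :
    x ≤ 2 * N * (Real.sqrt (5 * C2) * Real.sqrt (Real.log D / D)) := by
  have hDpos : 0 < D := by linarith
  have hNpos : 0 < N := by linarith
  have hM : 0 < M := by nlinarith
  have hlog2 : (0.6931471803 : ℝ) < Real.log 2 := Real.log_two_gt_d9
  have hlogD : (0.69 : ℝ) ≤ Real.log D := by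
    have : Real.log 2 ≤ Real.log D := Real.log_le_log (by norm_num) hD
    linarith
  have hℓ1 : 1 ≤ ℓ := by linarith
  have hℓD : ℓ ≤ D := by
    have := Real.log_le_sub_one_of_pos hDpos
    linarith
  have hC2p : 0 < C2 := by linarith
  have h36 : 1 / (2 * C2 * ℓ) ≤ pk ^ 2 := by
    rw [hpk2]
    rcases Nat.eq_zero_or_pos k with hk0 | hk1
    · have h37 : M / (C2 * ℓ) < 1 := by
        have h38 := Nat.lt_floor_add_one (M / (C2 * ℓ))
        rw [← hk, hk0] at h38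
        simpa using h38
      have h39 : M < C2 * ℓ := by
        rwa [div_lt_one (by positivity)] at h37
      have h40 : 2 / 3 * D ^ 2 ≤ M := by nlinarith
      have h41 : D ≤ 2 * C2 := by
        have h42 : 2 / 3 * D ^ 2 < C2 * D := by
          calc 2 / 3 * D ^ 2 ≤ M := h40
            _ < C2 * ℓ := h39
            _ ≤ C2 * D := by gcongr
        nlinarith
      have h43 : 1 / (2 * C2 * ℓ) ≤ 1 / D := by
        apply one_div_le_one_div_of_le hDpos
        nlinarith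
      have : 0 ≤ 2 * (k : ℝ) * (1 / M) := by positivity
      linarith
    · have hk1' : (1 : ℝ) ≤ k := by exact_mod_cast hk1
      have h38 := Nat.lt_floor_add_one (M / (C2 * ℓ))
      rw [← hk] at h38
      have h44 : M / (C2 * ℓ) ≤ 2 * k := by linarith
      have h46 : 1 / (2 * C2 * ℓ) = M / (C2 * ℓ) * (1 / M) / 2 := by
        field_simp
      have h47 : M / (C2 * ℓ) * (1 / M) ≤ 2 * k * (1 / M) := by gcongr
      have h48 : 0 ≤ 2 * (k : ℝ) * (1 / M) := by positivity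
      have : 0 < 1 / D := by positivity
      rw [h46]
      linarith
  have h49 : Real.sqrt (1 / (2 * C2 * ℓ)) ≤ pk := by
    rw [show pk = Real.sqrt (pk ^ 2) from (Real.sqrt_sq hpk.le).symm]
    exact Real.sqrt_le_sqrt h36
  have h50 : x ≤ 2 * (N * Real.sqrt (1 / D)) / pk := by
    rw [le_div_iff₀ hpk]; exact hx
  have hs0 : 0 < Real.sqrt (1 / (2 * C2 * ℓ)) := Real.sqrt_pos.2 (by positivity)
  have h51 : 2 * (N * Real.sqrt (1 / D)) / pk ≤
      2 * (N * Real.sqrt (1 / D)) / Real.sqrt (1 / (2 * C2 * ℓ)) := by gcongr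
  have h52 : 2 * (N * Real.sqrt (1 / D)) / Real.sqrt (1 / (2 * C2 * ℓ)) =
      2 * N * Real.sqrt (2 * C2 * ℓ / D) := by
    have h58 : Real.sqrt (1 / D) / Real.sqrt (1 / (2 * C2 * ℓ)) = Real.sqrt (2 * C2 * ℓ / D) := by
      rw [← Real.sqrt_div (by positivity)]
      congr 1
      field_simp
    rw [← h58]
    ring
  have h54 : Real.sqrt (2 * C2 * ℓ / D) ≤ Real.sqrt (5 * C2) * Real.sqrt (Real.log D / D) := by
    have h55 : ℓ ≤ 5 / 2 * Real.log D := by rw [hℓ]; linarith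
    rw [← Real.sqrt_mul (by positivity)]
    apply Real.sqrt_le_sqrt
    rw [div_le_iff₀ hDpos]
    have h57 : 5 * C2 * (Real.log D / D) * D = 5 * C2 * Real.log D := by field_simp
    rw [h57]
    nlinarith
  calc x ≤ _ := h50
    _ ≤ _ := h51
    _ = _ := h52
    _ ≤ _ := by gcongr

end Rec

open Rec

/-- [REC] pure real numbers: M = number of blocks, N = number of points, D = degree, 3 M = N D -/
theorem rec_bound (c C : ℝ) (hc : 0 < c) (hC : 0 < C) :
    ∃ C' : ℝ, 0 < C' ∧ ∀ (M N D : ℝ), 2 ≤ D → 2 * D + 1 ≤ N → 3 * M = N * D →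
      ∃ k : ℕ, ∀ (ρ x u : ℕ → ℝ), (∀ i, ρ i = 1 / (1 / D + 2 * (i : ℝ) / M)) →
        x 0 = N → u 0 = 0 → (∀ i, 0 ≤ x i) → (∀ i, 0 ≤ u i) →
        (∀ i, ∀ η : ℝ, 0 < η → x (i + 1) ≤ (1 - ρ i / M + η / (2 * M)) * x i +
          ρ i ^ 2 / (2 * c * η * M) * u i) →
        (∀ i, u (i + 1) ≤ (1 + (ρ i + C) / M) * u i + C / M * x i) →
        x k ≤ C' * N * Real.sqrt (Real.log D / D) := by
  obtain ⟨b0, hb0⟩ : ∃ b0 : ℝ, b0 = Real.exp (C + 2) * (2 * C) := ⟨_, rfl⟩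
  have hb0p : 0 < b0 := by rw [hb0]; positivity
  obtain ⟨κ, hκ⟩ : ∃ κ : ℝ, κ = 3 / 2 * (1 + 1 / (2 * c)) * (5 / 4) := ⟨_, rfl⟩
  have hκp : 0 < κ := by rw [hκ]; positivity
  obtain ⟨C2, hC2⟩ : ∃ C2 : ℝ, C2 = 4 + 2 * b0 * κ ^ 2 := ⟨_, rfl⟩
  have hC2p : 4 ≤ C2 := by
    have : 0 ≤ 2 * b0 * κ ^ 2 := by positivity
    linarith
  refine ⟨2 * Real.sqrt (5 * C2), by positivity, ?_⟩
  intro M N D hD hN h3
  have hNpos : 0 < N := by linarith
  have hDpos : 0 < D := by linarith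
  have hM : 0 < M := by nlinarith
  obtain ⟨ℓ, hℓ⟩ : ∃ ℓ : ℝ, ℓ = 1 + Real.log D := ⟨_, rfl⟩
  have hlogD : 0 < Real.log D := Real.log_pos (by linarith)
  have hℓ1 : 1 ≤ ℓ := by linarith
  obtain ⟨h, hh⟩ : ∃ h : ℝ, h = 1 / M := ⟨_, rfl⟩
  have hhp : 0 < h := by rw [hh]; positivity
  obtain ⟨k, hk⟩ : ∃ k : ℕ, k = ⌊M / (C2 * ℓ)⌋₊ := ⟨_, rfl⟩
  have hkle : (k : ℝ) * h ≤ 1 / (C2 * ℓ) := by
    have h5 : (k : ℝ) ≤ M / (C2 * ℓ) := by rw [hk]; exact Nat.floor_le (by positivity)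
    calc (k : ℝ) * h ≤ M / (C2 * ℓ) * h := by gcongr
      _ = 1 / (C2 * ℓ) := by rw [hh]; field_simp
  refine ⟨k, ?_⟩
  intro ρ x u hρ hx0 hu0 hxn hun hrx hru
  obtain ⟨p, hp⟩ : ∃ p : ℕ → ℝ, ∀ i, p i = Real.sqrt (1 / D + 2 * (i : ℝ) * h) :=
    ⟨_, fun _ => rfl⟩
  have harg : ∀ i : ℕ, 0 < 1 / D + 2 * (i : ℝ) * h := fun i => by positivity
  have hpp : ∀ i, 0 < p i := fun i => by rw [hp]; exact Real.sqrt_pos.2 (harg i)
  have hpsq : ∀ i, p i ^ 2 = 1 / D + 2 * (i : ℝ) * h := fun i => by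
    rw [hp]; exact Real.sq_sqrt (harg i).le
  have hstep : ∀ i, p (i + 1) ^ 2 = p i ^ 2 + 2 * h := fun i => by
    rw [hpsq, hpsq]; push_cast; ring
  have hρp : ∀ i, ρ i = 1 / p i ^ 2 := fun i => by
    rw [hρ i, hpsq, hh]; congr 2; field_simp
  have hpD : ∀ i, 1 / D ≤ p i ^ 2 := fun i => by
    rw [hpsq]
    have : 0 ≤ 2 * (i : ℝ) * h := by positivity
    linarith
  have hhD : h ≤ 3 / 5 * (1 / D) := by
    rw [hh, div_le_iff₀ hM]
    have : 3 / 5 * (1 / D) * M = (3 * M) / (5 * D) := by field_simp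
    rw [this, h3, le_div_iff₀ (by positivity)]
    nlinarith
  have hhD2 : h ≤ 3 / 2 * (1 / D) ^ 2 := by
    rw [hh, div_le_iff₀ hM]
    have : 3 / 2 * (1 / D) ^ 2 * M = (3 * M) / (2 * D ^ 2) := by field_simp
    rw [this, h3, le_div_iff₀ (by positivity)]
    nlinarith
  have h1 : ∀ i, h ≤ 3 / 5 * p i ^ 2 := fun i => by
    have := hpD i; linarith
  have h2 : ∀ i, h ≤ 3 / 2 * p i ^ 4 := fun i => by
    have h6 := hpD i
    have h7 : (1 / D) ^ 2 ≤ (p i ^ 2) ^ 2 := by gcongr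
    have h8 : p i ^ 4 = (p i ^ 2) ^ 2 := by ring
    rw [h8]; linarith
  have hp0 : p 0 = Real.sqrt (1 / D) := by rw [hp]; simp
  have hp0sq : p 0 ^ 2 = 1 / D := by rw [hpsq]; simp
  have hmono : ∀ i, p 0 ≤ p i := fun i => by
    rw [hp0, hp]
    apply Real.sqrt_le_sqrt
    have : 0 ≤ 2 * (i : ℝ) * h := by positivity
    linarith
  have hih : ∀ i, i ≤ k → (i : ℝ) * h ≤ 1 / (C2 * ℓ) := fun i hi => by
    have : (i : ℝ) ≤ k := by exact_mod_cast hi
    calc (i : ℝ) * h ≤ k * h := by gcongr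
      _ ≤ _ := hkle
  have hinv : 1 / (C2 * ℓ) ≤ 1 / 4 := by
    apply one_div_le_one_div_of_le (by norm_num)
    nlinarith
  have hΛle : ∀ i, i ≤ k → 2 * Real.log (p i) - 2 * Real.log (p 0) ≤ ℓ := fun i hi => by
    have h9 := hih i hi
    have h10 : p i ^ 2 ≤ 1 := by
      rw [hpsq]
      have : 1 / D ≤ 1 / 2 := one_div_le_one_div_of_le (by norm_num) hD
      linarith
    have h11 : p i ≤ 1 := by nlinarith [hpp i]
    have h12 : Real.log (p i) ≤ 0 := Real.log_nonpos (hpp i).le h11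
    have h13 : 2 * Real.log (p 0) = - Real.log D := by
      have : Real.log (p 0 ^ 2) = 2 * Real.log (p 0) := by
        rw [Real.log_pow]; norm_num
      rw [← this, hp0sq, one_div, Real.log_inv]
    rw [h13]
    linarith
  have hbp : 0 < b0 * ℓ := by positivity
  have heple : ∀ i, i ≤ k → 3 / 2 * (1 + 1 / (2 * c)) * (5 / 4) * Real.sqrt (b0 * ℓ) *
      (p i - p 0) ≤ 1 := fun i hi => by
    have h9 := hih i hi
    have h10 : p i - p 0 ≤ Real.sqrt (2 * (i : ℝ) * h) := by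
      rw [hp0, hp]
      exact sqrt_sub_le (by positivity) (by positivity)
    have h16 : Real.sqrt (b0 * ℓ) * Real.sqrt (2 * (i : ℝ) * h) ≤ Real.sqrt (2 * b0 / C2) := by
      rw [← Real.sqrt_mul hbp.le]
      apply Real.sqrt_le_sqrt
      have : b0 * ℓ * (2 * (i : ℝ) * h) = 2 * b0 * ℓ * ((i : ℝ) * h) := by ring
      rw [this]
      calc 2 * b0 * ℓ * ((i : ℝ) * h) ≤ 2 * b0 * ℓ * (1 / (C2 * ℓ)) := by gcongr
        _ = 2 * b0 / C2 := by field_simp
    have h17 : κ * Real.sqrt (2 * b0 / C2) ≤ 1 := by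
      have h18 : κ = Real.sqrt (κ ^ 2) := (Real.sqrt_sq hκp.le).symm
      rw [h18, ← Real.sqrt_mul (by positivity)]
      rw [show (1 : ℝ) = Real.sqrt 1 by simp]
      apply Real.sqrt_le_sqrt
      rw [mul_div_assoc', div_le_one (by linarith)]
      rw [hC2]; nlinarith
    rw [← hκ]
    calc κ * Real.sqrt (b0 * ℓ) * (p i - p 0) ≤
        κ * Real.sqrt (b0 * ℓ) * Real.sqrt (2 * (i : ℝ) * h) := by gcongr
      _ = κ * (Real.sqrt (b0 * ℓ) * Real.sqrt (2 * (i : ℝ) * h)) := by ring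
      _ ≤ κ * Real.sqrt (2 * b0 / C2) := by gcongr
      _ ≤ 1 := h17
  have hZp : 0 < N * p 0 := mul_pos hNpos (hpp 0)
  obtain ⟨Z, hZ⟩ : ∃ Z : ℝ, Z = N * p 0 := ⟨_, rfl⟩
  rw [← hZ] at hZp
  have key := core (c := c) (C := C) (h := h) (b := b0 * ℓ) (ℓ := ℓ) k hc hC hhp hbp
    (by rw [hb0]) p (fun i => x i / Z) (fun i => u i / Z) hpp hstep h1 h2 hmono
    (fun i hi => (hih i hi).trans (hinv.trans (by norm_num))) hΛle heple ?_ ?_ ?_ ?_ k le_rfl
  · have h60 := key.1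
    have h61 := heple k le_rfl
    have h62 : x k / Z * p k ≤ 2 := by linarith
    rw [div_mul_eq_mul_div, div_le_iff₀ hZp, hZ, hp0] at h62
    have h63 := fin (k := k) hC2p hD hN h3 hℓ hk (hpp k) (by rw [hpsq, hh]) h62
    calc x k ≤ _ := h63
      _ = _ := by ring
  · show x 0 / Z * p 0 ≤ 1
    rw [hx0, hZ]
    have := hpp 0
    apply le_of_eq
    field_simp
  · show u 0 / Z ≤ 0
    rw [hu0]; simp
  · intro i η hη
    show x (i + 1) / Z ≤ (1 - h / p i ^ 2 + h * η / 2) * (x i / Z) +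
      h / p i ^ 4 / (2 * c * η) * (u i / Z)
    have h22 := hrx i η hη
    rw [hρp i] at h22
    have hpi := hpp i
    have h23 : (1 - 1 / p i ^ 2 / M + η / (2 * M)) * x i +
        (1 / p i ^ 2) ^ 2 / (2 * c * η * M) * u i =
        ((1 - h / p i ^ 2 + h * η / 2) * (x i / Z) +
          h / p i ^ 4 / (2 * c * η) * (u i / Z)) * Z := by
      rw [hh]
      field_simp
    rw [h23] at h22
    rw [div_le_iff₀ hZp]
    exact h22
  · intro i
    show u (i + 1) / Z ≤ (1 + (h / p i ^ 2 + h * C)) * (u i / Z) + h * C * (x i / Z)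
    have h22 := hru i
    rw [hρp i] at h22
    have hpi := hpp i
    have h23 : (1 + (1 / p i ^ 2 + C) / M) * u i + C / M * x i =
        ((1 + (h / p i ^ 2 + h * C)) * (u i / Z) + h * C * (x i / Z)) * Z := by
      rw [hh]
      field_simp
    rw [h23] at h22
    rw [div_le_iff₀ hZp]
    exact h22

end

end Vale.Agent.P046
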