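import Vale.Agent.P046.Defs

/-!
P046, [STEP]: one step of the lazy chain, with the change of `ρ`.
-/

namespace Vale.Agent.P046

open Finset

noncomputable section

namespace Step

theorem mul_self_bound {a h : ℝ} (ha0 : 0 < a) (ha2 : a ^ 2 ≤ 3 * h) (hh1 : h ≤ 1) : a ≤ 2 := by
  nlinarith

theorem abs_le_add {y : ℝ} (hy : 0 ≤ y) : |y - 1| ≤ y + 1 := by
  rw [abs_le]; constructor <;> linarith

theorem mul_deriv {ψ ψ' : ℝ → ℝ} {c K : ℝ} (hP : Pot ψ ψ' c K) {y : ℝ} (hy : 0 ≤ y) :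
    y * ψ' y ≤ K * (2 * y ^ 2 + 1) := by
  have hK := hP.Kpos
  have h1 : ψ' y ≤ K * (y + 1) :=
    (le_abs_self _).trans ((hP.dbound y hy).trans
      (mul_le_mul_of_nonneg_left (abs_le_add hy) hK.le))
  have h2 : y * ψ' y ≤ y * (K * (y + 1)) := mul_le_mul_of_nonneg_left h1 hy
  have h3 : y * (y + 1) ≤ 2 * y ^ 2 + 1 := by nlinarith [sq_nonneg (y - 1)]
  have h4 := mul_le_mul_of_nonneg_left h3 hK.le
  linarith

theorem t1 {ψ ψ' : ℝ → ℝ} {c K : ℝ} (hP : Pot ψ ψ' c K) {h a y y' : ℝ} (ha0 : 0 < a)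
    (ha2 : a ^ 2 ≤ 3 * h) (hy : 0 ≤ y) (hy' : 0 ≤ y') (hyy : y' - y = 2 * a * y) :
    2 * a * y * (ψ' y - ψ' y') ≤ 24 * K * h * y ^ 2 := by
  have hK := hP.Kpos
  have h1 := hP.lip y y' hy hy'
  have h2 : |y - y'| = 2 * a * y := by
    rw [abs_sub_comm, hyy, abs_of_nonneg (by positivity)]
  rw [h2] at h1
  have h3 : ψ' y - ψ' y' ≤ 2 * K * (2 * a * y) := (le_abs_self _).trans h1
  have h4 : 2 * a * y * (ψ' y - ψ' y') ≤ 2 * a * y * (2 * K * (2 * a * y)) :=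
    mul_le_mul_of_nonneg_left h3 (by positivity)
  have h5 : 2 * a * y * (2 * K * (2 * a * y)) = 8 * (K * y ^ 2) * a ^ 2 := by ring
  have h6 : 8 * (K * y ^ 2) * a ^ 2 ≤ 8 * (K * y ^ 2) * (3 * h) :=
    mul_le_mul_of_nonneg_left ha2 (by positivity)
  linarith

theorem t2 {ψ ψ' : ℝ → ℝ} {c K : ℝ} (hP : Pot ψ ψ' c K) {h a a' y : ℝ} (ha0 : 0 < a)
    (ha'0 : 0 < a') (haa : a' ≤ a) (ha2 : a ^ 2 ≤ 3 * h) (hy : 0 ≤ y) :
    a' * (2 * a * (y * ψ' y)) ≤ 6 * h * (K * (2 * y ^ 2 + 1)) := by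
  have hK := hP.Kpos
  have ty := mul_deriv hP hy
  have h0 : 0 ≤ K * (2 * y ^ 2 + 1) := by positivity
  have h1 : a' * (2 * a) ≤ 6 * h := by
    have := mul_le_mul_of_nonneg_right haa (show 0 ≤ 2 * a by linarith)
    nlinarith
  have h2 : a' * (2 * a) * (y * ψ' y) ≤ a' * (2 * a) * (K * (2 * y ^ 2 + 1)) :=
    mul_le_mul_of_nonneg_left ty (by positivity)
  have h3 := mul_le_mul_of_nonneg_right h1 h0
  have h4 : a' * (2 * a * (y * ψ' y)) = a' * (2 * a) * (y * ψ' y) := by ring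
  linarith

theorem t3 {K h a a' y : ℝ} (hK : 0 < K) (ha' : 1 + a' ≤ 3) (ha2 : a ^ 2 ≤ 3 * h) :
    (1 + a') * (K * (2 * a * y) ^ 2) ≤ 36 * K * h * y ^ 2 := by
  have h2 : K * (2 * a * y) ^ 2 = 4 * (K * y ^ 2) * a ^ 2 := by ring
  have h3 : 4 * (K * y ^ 2) * a ^ 2 ≤ 4 * (K * y ^ 2) * (3 * h) :=
    mul_le_mul_of_nonneg_left ha2 (by positivity)
  have h4 : (1 + a') * (K * (2 * a * y) ^ 2) ≤ 3 * (K * (2 * a * y) ^ 2) :=
    mul_le_mul_of_nonneg_right ha' (by positivity)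
  rw [h2] at h4 ⊢
  linarith

theorem sq5 {y y' : ℝ} (hy' : 0 ≤ y') (h : y' ≤ 5 * y) : y' ^ 2 ≤ 25 * y ^ 2 := by
  have := pow_le_pow_left₀ hy' h 2
  linarith [show (5 * y) ^ 2 = 25 * y ^ 2 by ring]

theorem y2ψ {ψ ψ' : ℝ → ℝ} {c K : ℝ} (hP : Pot ψ ψ' c K) {y : ℝ} (hy : 0 ≤ y) :
    y ^ 2 ≤ 2 / c * ψ y + 2 := by
  have hc := hP.cpos
  have h1 := hP.lower y hy
  have h2 : (y - 1) ^ 2 ≤ ψ y / c := by
    rw [le_div_iff₀ hc]; linarith
  have h3 : 2 / c * ψ y = 2 * (ψ y / c) := by ring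
  rw [h3]
  nlinarith [sq_nonneg (y - 2)]

theorem final {K c h X Y : ℝ} (hK : 0 < K) (hc : 0 < c) (hh : 0 < h) (hX : 0 ≤ X)
    (hY : Y ≤ 2 / c * X + 2) :
    h * K * (322 * Y + 8) ≤ h * (700 * K * (1 / c + 1)) * X + h * (700 * K * (1 / c + 1)) := by
  have k7 : h * K * (322 * Y + 8) ≤ h * K * (322 * (2 / c * X + 2) + 8) :=
    mul_le_mul_of_nonneg_left (by linarith) (by positivity)
  have k8 : h * K * (322 * (2 / c * X + 2) + 8) =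
      h * (644 * K * (1 / c)) * X + h * (652 * K) := by ring
  have hKc : 0 < K * (1 / c) := by positivity
  have k9 : h * (644 * K * (1 / c)) * X ≤ h * (700 * K * (1 / c + 1)) * X := by
    apply mul_le_mul_of_nonneg_right _ hX
    apply mul_le_mul_of_nonneg_left _ hh.le
    linarith [show 700 * K * (1 / c + 1) = 700 * (K * (1 / c)) + 700 * K by ring,
      show 644 * K * (1 / c) = 644 * (K * (1 / c)) by ring]
  have k10 : h * (652 * K) ≤ h * (700 * K * (1 / c + 1)) := by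
    apply mul_le_mul_of_nonneg_left _ hh.le
    linarith [show 700 * K * (1 / c + 1) = 700 * (K * (1 / c)) + 700 * K by ring]
  linarith

/-- the pointwise inequality behind `step_pot` -/
theorem point {ψ ψ' : ℝ → ℝ} {c K : ℝ} (hP : Pot ψ ψ' c K) {h ρ ρ' y y' : ℝ}
    (hh : 0 < h) (hh1 : h ≤ 1) (hρ' : 0 < ρ') (hρρ : ρ' ≤ ρ) (hb : h * ρ ^ 2 ≤ 3)
    (hy : 0 ≤ y) (hyy : y' = (1 + 2 * (h * ρ)) * y) (hd : ρ' * y' = ρ * y) :
    (1 + h * ρ') * ψ y' + h * ((2 - 2 * ρ') * (y' * ψ' y')) + h * (6 * K * y' ^ 2) ≤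
      (1 + h * (ρ + 700 * K * (1 / c + 1))) * ψ y + h * (700 * K * (1 / c + 1)) := by
  have hc := hP.cpos
  have hK := hP.Kpos
  have hρ : 0 < ρ := by linarith
  have ha0 : 0 < h * ρ := by positivity
  have ha'0 : 0 < h * ρ' := by positivity
  have haa : h * ρ' ≤ h * ρ := mul_le_mul_of_nonneg_left hρρ hh.le
  have ha2 : (h * ρ) ^ 2 ≤ 3 * h := by
    have e : (h * ρ) ^ 2 = h * (h * ρ ^ 2) := by ring
    have e2 := mul_le_mul_of_nonneg_left hb hh.le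
    linarith
  have ha_le : h * ρ ≤ 2 := mul_self_bound ha0 ha2 hh1
  have hy'0 : 0 ≤ y' := by rw [hyy]; positivity
  have hy'y : y' - y = 2 * (h * ρ) * y := by rw [hyy]; ring
  have hy'5 : y' ≤ 5 * y := by
    have := mul_le_mul_of_nonneg_right ha_le hy
    linarith
  have hψ0 : 0 ≤ ψ y := le_trans (by positivity) (hP.lower y hy)
  have e1 : ψ y' ≤ ψ y + 2 * (h * ρ) * y * ψ' y + K * (2 * (h * ρ) * y) ^ 2 := by
    have := hP.taylor y y' hy hy'0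
    rwa [hy'y] at this
  have e2 := mul_le_mul_of_nonneg_left e1 (show 0 ≤ 1 + h * ρ' by linarith)
  have T1 := t1 hP ha0 ha2 hy hy'0 hy'y
  have T2 := t2 hP ha0 ha'0 haa ha2 hy
  have T3 := t3 (y := y) hK (show 1 + h * ρ' ≤ 3 by linarith) ha2
  have T5 := sq5 hy'0 hy'5
  have T4 := mul_deriv hP hy'0
  have T4' : 2 * h * (y' * ψ' y') ≤ 2 * h * (K * (50 * y ^ 2 + 1)) := by
    apply mul_le_mul_of_nonneg_left _ (by positivity)
    refine T4.trans (mul_le_mul_of_nonneg_left (by linarith) hK.le)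
  have T6 : h * (6 * K * y' ^ 2) ≤ h * (6 * K * (25 * y ^ 2)) :=
    mul_le_mul_of_nonneg_left (mul_le_mul_of_nonneg_left T5 (by positivity)) hh.le
  have k1 : h * ((2 - 2 * ρ') * (y' * ψ' y')) =
      2 * h * (y' * ψ' y') - 2 * (h * ρ) * y * ψ' y' := by
    have e : 2 * (h * ρ) * y * ψ' y' = 2 * h * (ρ * y) * ψ' y' := by ring
    rw [e, ← hd]
    ring
  have k4 : (1 + h * ρ') * (ψ y + 2 * (h * ρ) * y * ψ' y + K * (2 * (h * ρ) * y) ^ 2) =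
      (1 + h * ρ') * ψ y + 2 * (h * ρ) * y * ψ' y + (h * ρ') * (2 * (h * ρ) * (y * ψ' y)) +
        (1 + h * ρ') * (K * (2 * (h * ρ) * y) ^ 2) := by ring
  have k5 : 2 * (h * ρ) * y * (ψ' y - ψ' y') = 2 * (h * ρ) * y * ψ' y -
      2 * (h * ρ) * y * ψ' y' := by ring
  have k6 : (1 + h * ρ') * ψ y ≤ (1 + h * ρ) * ψ y :=
    mul_le_mul_of_nonneg_right (by linarith) hψ0
  have k7 := final hK hc hh hψ0 (y2ψ hP hy)
  have k8 : (1 + h * (ρ + 700 * K * (1 / c + 1))) * ψ y =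
      (1 + h * ρ) * ψ y + h * (700 * K * (1 / c + 1)) * ψ y := by ring
  have k9 : h * K * (322 * y ^ 2 + 8) = 24 * K * h * y ^ 2 + 6 * h * (K * (2 * y ^ 2 + 1)) +
      36 * K * h * y ^ 2 + 2 * h * (K * (50 * y ^ 2 + 1)) + h * (6 * K * (25 * y ^ 2)) := by ring
  rw [k1, k8]
  rw [k4] at e2
  rw [k5] at T1
  linarith

end Step

/-- [STEP] from the drift inequality -/
theorem Step.step_pot_of (ψ ψ' : ℝ → ℝ) (c K : ℝ) (h : Pot ψ ψ' c K)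
    (hdrift : ∀ (α : Type) [DecidableEq α] (B : Finset (Finset α)), Lin3 B → ∀ ρ : ℝ, 0 < ρ →
      ∀ A : Finset α, ∑ T ∈ bl B A, (Pt B ψ ρ (A \ T) - Pt B ψ ρ A) ≤
      ρ * Pt B ψ ρ A +
        (2 - 2 * ρ) * ∑ e ∈ A, ((dg B A e : ℝ) / ρ) * ψ' ((dg B A e : ℝ) / ρ) +
        6 * K * ∑ e ∈ A, ((dg B A e : ℝ) / ρ) ^ 2) :
    ∃ C : ℝ, 0 < C ∧ ∀ (α : Type) [DecidableEq α] (B : Finset (Finset α)), Lin3 B →
      ∀ (ρ ρ' : ℝ), 0 < ρ' → ρ' ≤ ρ → 0 < B.card → 1 / ρ' = 1 / ρ + 2 / (B.card : ℝ) →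
      ρ ^ 2 ≤ 3 * (B.card : ℝ) →
      ∀ A : Finset α, lz B (Pt B ψ ρ') A ≤
        (1 + (ρ + C) / (B.card : ℝ)) * Pt B ψ ρ A + C / (B.card : ℝ) * (A.card : ℝ) := by
  have hc := h.cpos
  have hK := h.Kpos
  refine ⟨700 * K * (1 / c + 1), by positivity, ?_⟩
  intro α _ B hB ρ ρ' hρ' hρρ hBc hinv hρ2 A
  have hM : (0 : ℝ) < (B.card : ℝ) := by exact_mod_cast hBc
  have hM1 : (1 : ℝ) ≤ (B.card : ℝ) := by exact_mod_cast hBc
  have hρ : 0 < ρ := by linarith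
  set M : ℝ := (B.card : ℝ) with hMdef
  set η : ℝ := 1 / M with hη
  have hη0 : 0 < η := by positivity
  have hη1 : η ≤ 1 := by rw [hη, div_le_one hM]; exact hM1
  have hb : η * ρ ^ 2 ≤ 3 := by
    rw [hη, one_div, inv_mul_le_iff₀ hM]
    linarith
  have h1 : lz B (Pt B ψ ρ') A ≤ Pt B ψ ρ' A + η * (ρ' * Pt B ψ ρ' A +
        (2 - 2 * ρ') * ∑ e ∈ A, ((dg B A e : ℝ) / ρ') * ψ' ((dg B A e : ℝ) / ρ') +
        6 * K * ∑ e ∈ A, ((dg B A e : ℝ) / ρ') ^ 2) := by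
    unfold lz
    have h2 := mul_le_mul_of_nonneg_left (hdrift α B hB ρ' hρ' A) hη0.le
    have h3 : (∑ T ∈ bl B A, (Pt B ψ ρ' (A \ T) - Pt B ψ ρ' A)) / (B.card : ℝ) =
        η * ∑ T ∈ bl B A, (Pt B ψ ρ' (A \ T) - Pt B ψ ρ' A) := by
      rw [hη]; ring
    rw [h3]
    linarith
  refine h1.trans ?_
  have h4 : Pt B ψ ρ' A + η * (ρ' * Pt B ψ ρ' A +
        (2 - 2 * ρ') * ∑ e ∈ A, ((dg B A e : ℝ) / ρ') * ψ' ((dg B A e : ℝ) / ρ') +
        6 * K * ∑ e ∈ A, ((dg B A e : ℝ) / ρ') ^ 2) =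
      ∑ e ∈ A, ((1 + η * ρ') * ψ ((dg B A e : ℝ) / ρ') +
        η * ((2 - 2 * ρ') * (((dg B A e : ℝ) / ρ') * ψ' ((dg B A e : ℝ) / ρ'))) +
        η * (6 * K * ((dg B A e : ℝ) / ρ') ^ 2)) := by
    unfold Pt
    rw [Finset.sum_add_distrib, Finset.sum_add_distrib, ← Finset.mul_sum, ← Finset.mul_sum,
      ← Finset.mul_sum, ← Finset.mul_sum, ← Finset.mul_sum]
    ring
  have h5 : (1 + (ρ + 700 * K * (1 / c + 1)) / M) * Pt B ψ ρ A +
      700 * K * (1 / c + 1) / M * (A.card : ℝ) =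
      ∑ e ∈ A, ((1 + η * (ρ + 700 * K * (1 / c + 1))) * ψ ((dg B A e : ℝ) / ρ) +
        η * (700 * K * (1 / c + 1))) := by
    unfold Pt
    rw [Finset.sum_add_distrib, ← Finset.mul_sum, Finset.sum_const, nsmul_eq_mul, hη]
    ring
  rw [h4, h5]
  refine Finset.sum_le_sum fun e _ => ?_
  refine Step.point h hη0 hη1 hρ' hρρ hb (by positivity) ?_ ?_
  · have e1 : (dg B A e : ℝ) / ρ' = (dg B A e : ℝ) * (1 / ρ') := by ring
    rw [e1, hinv, hη]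
    field_simp
  · field_simp

/-- [STEP] the number of alive points, from the drift identity -/
theorem Step.step_card_of {α : Type} [DecidableEq α] (ψ ψ' : ℝ → ℝ) (c K : ℝ) (h : Pot ψ ψ' c K)
    (B : Finset (Finset α))
    (ρ η : ℝ) (hρ : 0 < ρ) (hη : 0 < η) (hc : 0 < B.card) (A : Finset α)
    (hdrift : ∑ T ∈ bl B A, (((A \ T).card : ℝ) - (A.card : ℝ)) = -∑ e ∈ A, (dg B A e : ℝ)) :
    lz B (fun A => (A.card : ℝ)) A ≤
      (1 - ρ / (B.card : ℝ) + η / (2 * (B.card : ℝ))) * (A.card : ℝ) +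
        ρ ^ 2 / (2 * c * η * (B.card : ℝ)) * Pt B ψ ρ A := by
  have hc0 := h.cpos
  have hM : (0 : ℝ) < (B.card : ℝ) := by exact_mod_cast hc
  unfold lz
  rw [hdrift]
  set M : ℝ := (B.card : ℝ) with hMdef
  have key : ∀ e ∈ A, ρ - (dg B A e : ℝ) ≤
      η / 2 + ρ ^ 2 / (2 * c * η) * ψ ((dg B A e : ℝ) / ρ) := by
    intro e _
    set y : ℝ := (dg B A e : ℝ) / ρ with hy
    have hy0 : 0 ≤ y := by positivity
    have hd : (dg B A e : ℝ) = ρ * y := by rw [hy]; field_simp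
    have h1 := h.lower y hy0
    have h2 : (y - 1) ^ 2 ≤ ψ y / c := by
      rw [le_div_iff₀ hc0]; linarith
    have h3 : ρ ^ 2 / (2 * c * η) * ψ y = ρ ^ 2 / (2 * η) * (ψ y / c) := by
      field_simp
    have h4 : ρ ^ 2 / (2 * η) * (y - 1) ^ 2 ≤ ρ ^ 2 / (2 * η) * (ψ y / c) :=
      mul_le_mul_of_nonneg_left h2 (by positivity)
    have h5 : ρ - ρ * y ≤ η / 2 + ρ ^ 2 / (2 * η) * (y - 1) ^ 2 := by
      have e1 : η / 2 + ρ ^ 2 / (2 * η) * (y - 1) ^ 2 - (ρ - ρ * y) =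
          (η - ρ * (1 - y)) ^ 2 / (2 * η) := by
        field_simp
        ring
      have e2 : 0 ≤ (η - ρ * (1 - y)) ^ 2 / (2 * η) := by positivity
      linarith
    rw [hd, h3]
    linarith
  have hsum := Finset.sum_le_sum key
  rw [Finset.sum_sub_distrib, Finset.sum_add_distrib, Finset.sum_const, Finset.sum_const,
    ← Finset.mul_sum, nsmul_eq_mul, nsmul_eq_mul] at hsum
  have h6 : (A.card : ℝ) + -(∑ e ∈ A, (dg B A e : ℝ)) / M ≤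
      (A.card : ℝ) + (-(A.card * ρ) + (A.card * (η / 2) + ρ ^ 2 / (2 * c * η) *
        ∑ e ∈ A, ψ ((dg B A e : ℝ) / ρ))) / M := by
    have := div_le_div_of_nonneg_right (show -(∑ e ∈ A, (dg B A e : ℝ)) ≤
      -(A.card * ρ) + (A.card * (η / 2) + ρ ^ 2 / (2 * c * η) *
        ∑ e ∈ A, ψ ((dg B A e : ℝ) / ρ)) by linarith) hM.le
    linarith
  refine h6.trans (le_of_eq ?_)
  unfold Pt
  field_simp
  ring

end

end Vale.Agent.P046
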