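import Vale.Agent.P046.MainAux
import Vale.Agent.P046.Step
import Vale.Agent.P046.Rec
import Vale.Agent.P046.Psi

/-!
P046: the theorem for regular linear 3-uniform hypergraphs.
-/

namespace Vale.Agent.P046

open Finset

noncomputable section

/-- [MAIN] regular linear 3-graphs: the random greedy matching leaves at most
C N sqrt (log D / D) points uncovered on average -/
theorem main_regular : ∃ C : ℝ, 0 < C ∧ ∀ (α : Type) [DecidableEq α] (B : Finset (Finset α))
    (A : Finset α) (D : ℕ), 2 ≤ D → Lin3 B → (∀ T ∈ B, T ⊆ A) → (∀ e ∈ A, dg B A e = D) →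
    run B (fun A => (A.card : ℝ)) A.card A ≤
      C * (A.card : ℝ) * Real.sqrt (Real.log D / D) := by
  refine main_of ?_ ?_ rec_bound exists_pot
  · intro ψ ψ' c K h
    exact Step.step_pot_of ψ ψ' c K h
      (fun α _ B hB ρ hρ A => drift_pot B hB ψ ψ' c K h ρ hρ A)
  · intro ψ ψ' c K h α _ B hB ρ η hρ hη hc A
    exact Step.step_card_of ψ ψ' c K h B ρ η hρ hη hc A (drift_card B hB A)

end

end Vale.Agent.P046
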