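import Vale.Agent.P046.KnDefs

/-!
P046: deviations of `F_n / n ^ (3/2)` from a constant (definitions used in the hand-in).
-/

namespace Vale.Agent.P046

open Finset

noncomputable section

open Classical in
/-- the expectation of `|F_n / n ^ (3/2) - c|` -/
def meanDev (n : ℕ) (c : ℝ) : ℝ :=
  ∑ G : SimpleGraph (Fin n), (leave n G).toReal *
    |(G.edgeFinset.card : ℝ) / (n : ℝ) ^ (3 / 2 : ℝ) - c|

/-- the probability of `|F_n / n ^ (3/2) - c| ≥ ε` -/
def probDev (n : ℕ) (c ε : ℝ) : ℝ := by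
  classical
  exact ∑ G : SimpleGraph (Fin n),
    if ε ≤ |(G.edgeFinset.card : ℝ) / (n : ℝ) ^ (3 / 2 : ℝ) - c| then (leave n G).toReal else 0

end

end Vale.Agent.P046
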